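import Vale.Agent.P088.R2.H961.G.Ims
import Vale.Agent.P088.R2.H961.Apri

/-!
# P088, row TOPG: the localised inequality in one factor
-/

open MeasureTheory Set Filter
open scoped ContDiff Matrix Topology

noncomputable section

namespace Vale.Agent.P088.R2.H961

open Vale.Agent.P088.LR Vale.Agent.P088.HY

variable {n m K : ℕ} {ε D δ τ : ℝ} {s : MF n} {e : Co n m} {ζ : VV n → ℝ}

theorem sum_mono {F G : Fin m → VV n → ℝ} (hF : ∀ p, TU (F p)) (hG : ∀ p, TU (G p))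
    (h : ∀ z ∈ Un n, ∑ p, F p z ≤ ∑ p, G p z) : ∑ p, In (F p) ≤ ∑ p, In (G p) := by
  rw [← In_sum _ fun p _ => hF p, ← In_sum _ fun p _ => hG p]
  exact In_mono (TU.sum _ fun p _ => hF p) (TU.sum _ fun p _ => hG p) h

/-! ## Lower bound -/

/-- The lower bound for the system. -/
theorem lbG (hn : 3 ≤ n) (hs : TS n K ε s) (hK : 1 ≤ K) (hε : ε ≤ 1 / (96 * (n : ℝ) ^ 4))
    (he : CB D e) (hτ : 4 * (c1 n ^ 2 + c2 n) + 1 ≤ τ) (hτR : 400 * cR n m D ≤ τ)
    {f : Fin m → VV n → ℝ} (hf : ∀ p, TU (f p)) :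
    9 / 10 * ∑ p, In (fun z => Px s (-τ) (f p) z ^ 2) ≤
      ∑ p, In (fun z => PxG s e (-τ) f p z ^ 2) := by
  have hc2 : 0 ≤ c2 n := by unfold c2; positivity
  have hτ1 : 1 ≤ τ := by
    have := sq_nonneg (c1 n)
    linarith
  have hτ0 : 0 < τ := by linarith
  have hR := cR_nonneg n m D
  have uQ : ∀ p, TU fun z => Px s (-τ) (f p) z ^ 2 := fun p => (tu_Px hs (-τ) (hf p)).pow two_ne_zero
  have uG : ∀ p, TU fun z => PxG s e (-τ) f p z ^ 2 := fun p =>
    (tu_PxG hs he (-τ) hf p).pow two_ne_zero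
  have t2 : ∀ p, TU fun z => f p z ^ 2 := fun p => (hf p).pow two_ne_zero
  have tA : ∀ p, TU fun z => uu z * ∑ k, Ax k (f p) z ^ 2 := fun p =>
    (TU.sum _ fun k _ => ((hf p).ax k).pow two_ne_zero).mul_left su_uu
  have tB : ∀ p, TU fun z => uu z * (uu z ^ 2 - 1) * f p z ^ 2 := fun p =>
    (t2 p).mul_left (su_uu.mul ((su_uu.pow 2).sub contDiffOn_const))
  have tM : ∀ p, TU fun z => uu z ^ 2 * f p z ^ 2 := fun p => (t2 p).mul_left (su_uu.pow 2)
  have key := sum_mono (F := fun p z => 19 / 20 * Px s (-τ) (f p) z ^ 2 - 19 * cR n m D *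
      (uu z * ∑ k, Ax k (f p) z ^ 2 + τ ^ 2 * (uu z * (uu z ^ 2 - 1) * f p z ^ 2) +
        uu z ^ 2 * f p z ^ 2)) (fun p => ((uQ p).mul_left contDiffOn_const).sub
      ((((tA p).add ((tB p).mul_left contDiffOn_const)).add (tM p)).mul_left contDiffOn_const))
      uG fun z hz => by
    have h1 := Rx_sq hn he (-τ) f hz
    have hu := uu_ge hz
    have h2 : ∀ p, ∑ k, Ax k (f p) z ^ 2 + (-τ) ^ 2 * (uu z ^ 2 - 1) * f p z ^ 2 + f p z ^ 2 ≤
        uu z * ∑ k, Ax k (f p) z ^ 2 + τ ^ 2 * (uu z * (uu z ^ 2 - 1) * f p z ^ 2) +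
        uu z ^ 2 * f p z ^ 2 := by
      intro p
      have hA : 0 ≤ ∑ k, Ax k (f p) z ^ 2 := Finset.sum_nonneg fun _ _ => sq_nonneg _
      have hu2 : 0 ≤ uu z ^ 2 - 1 := by nlinarith
      have hB : 0 ≤ τ ^ 2 * ((uu z ^ 2 - 1) * f p z ^ 2) := by positivity
      have k1 := mul_nonneg (sub_nonneg.2 hu) hA
      have k2 := mul_nonneg (sub_nonneg.2 hu) hB
      have k3 := mul_nonneg hu2 (sq_nonneg (f p z))
      linear_combination k1 + k2 + k3
    have h3 := mul_le_mul_of_nonneg_left (Finset.sum_le_sum fun p (_ : p ∈ Finset.univ) => h2 p) hR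
    have h4 := h1.trans h3
    have h5 : ∀ p, 19 / 20 * Px s (-τ) (f p) z ^ 2 - 19 * Rx e (-τ) f p z ^ 2 ≤
        PxG s e (-τ) f p z ^ 2 := by
      intro p
      rw [PxG_eq]
      nlinarith [sq_nonneg (Px s (-τ) (f p) z + 20 * Rx e (-τ) f p z)]
    have h6 := Finset.sum_le_sum fun p (_ : p ∈ Finset.univ) => h5 p
    rw [Finset.sum_sub_distrib, ← Finset.mul_sum, ← Finset.mul_sum] at h6 ⊢
    linarith
  have e1 : ∀ p, In (fun z => 19 / 20 * Px s (-τ) (f p) z ^ 2 - 19 * cR n m D *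
      (uu z * ∑ k, Ax k (f p) z ^ 2 + τ ^ 2 * (uu z * (uu z ^ 2 - 1) * f p z ^ 2) +
        uu z ^ 2 * f p z ^ 2)) = 19 / 20 * In (fun z => Px s (-τ) (f p) z ^ 2) -
      19 * cR n m D * (In (fun z => uu z * ∑ k, Ax k (f p) z ^ 2) +
        τ ^ 2 * In (fun z => uu z * (uu z ^ 2 - 1) * f p z ^ 2) +
        In (fun z => uu z ^ 2 * f p z ^ 2)) := by
    intro p
    rw [In_sub ((uQ p).mul_left contDiffOn_const)
      ((((tA p).add ((tB p).mul_left contDiffOn_const)).add (tM p)).mul_left contDiffOn_const),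
      In_cmul, In_cmul, In_add ((tA p).add ((tB p).mul_left contDiffOn_const)) (tM p),
      In_add (tA p) ((tB p).mul_left contDiffOn_const), In_cmul]
  simp only [e1] at key
  refine le_trans ?_ key
  rw [Finset.mul_sum]
  refine Finset.sum_le_sum fun p _ => ?_
  have h1 := apri_x hn hs hK hε hτ (hf p)
  have hM0 : 0 ≤ In (fun z => uu z ^ 2 * f p z ^ 2) := In_nonneg fun z _ => by positivity
  have hA0 : 0 ≤ In (fun z => uu z * ∑ k, Ax k (f p) z ^ 2) := In_nonneg fun z hz =>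
    mul_nonneg (uu_pos hz).le (Finset.sum_nonneg fun _ _ => sq_nonneg _)
  have hB0 : 0 ≤ In (fun z => uu z * (uu z ^ 2 - 1) * f p z ^ 2) := In_nonneg fun z hz => by
    have hu := uu_ge hz
    have h6 : 0 ≤ uu z ^ 2 - 1 := by nlinarith
    have := uu_pos hz
    positivity
  generalize In (fun z => uu z * ∑ k, Ax k (f p) z ^ 2) = IA at *
  generalize In (fun z => uu z * (uu z ^ 2 - 1) * f p z ^ 2) = IB at *
  generalize In (fun z => uu z ^ 2 * f p z ^ 2) = IM at *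
  generalize In (fun z => Px s (-τ) (f p) z ^ 2) = q at *
  have h2 : τ * (IA + τ ^ 2 * IB + IM) ≤ q := by
    have : 0 ≤ τ * (τ - 1) * IM := by
      have : 0 ≤ τ - 1 := by linarith
      positivity
    linarith
  have h3 : 0 ≤ IA + τ ^ 2 * IB + IM := by positivity
  have h4 := mul_le_mul_of_nonneg_right hτR h3
  have h5 : 0 ≤ q := le_trans (mul_nonneg hτ0.le h3) h2
  linarith

/-- The lower bound for the system, in terms of `f`. -/
theorem lbG' (hn : 3 ≤ n) (hs : TS n K ε s) (hK : 1 ≤ K) (hε : ε ≤ 1 / (96 * (n : ℝ) ^ 4))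
    (he : CB D e) (hτ : 4 * (c1 n ^ 2 + c2 n) + 1 ≤ τ) (hτR : 400 * cR n m D ≤ τ)
    {f : Fin m → VV n → ℝ} (hf : ∀ p, TU (f p)) :
    9 / 10 * (τ * ∑ p, In (fun z => uu z * ∑ k, Ax k (f p) z ^ 2) +
        14 * τ ^ 2 * ∑ p, In (fun z => uu z ^ 2 * f p z ^ 2)) ≤
      ∑ p, In (fun z => PxG s e (-τ) f p z ^ 2) := by
  refine le_trans ?_ (lbG hn hs hK hε he hτ hτR hf)
  apply mul_le_mul_of_nonneg_left _ (by norm_num)
  rw [Finset.mul_sum, Finset.mul_sum, ← Finset.sum_add_distrib]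
  exact Finset.sum_le_sum fun p _ => lb hn hs hK hε hτ (hf p)

/-! ## The commutator -/

/-- A constant. -/
def c8 (n m : ℕ) (D : ℝ) : ℝ := 11 / 10 * c5 n + 352 * m ^ 2 * n ^ 2 * D ^ 2

theorem pt2G (hn : 3 ≤ n) (hs : TS n K ε s) (hε : ε ≤ 1 / (96 * (n : ℝ) ^ 4)) (he : CB D e)
    (hζ : Zt δ ζ) (hδ0 : 0 ≤ δ) (hδ : δ ≤ 1) (τ : ℝ) {g : Fin m → VV n → ℝ}
    (hg : ∀ p, SU (g p)) {z : VV n} (hz : z ∈ Un n) :
    ∑ p, NnG s e τ (psi ζ) g p z ^ 2 ≤ ∑ p, ((11 / 2 * τ ^ 2 + c8 n m D) * (ζ z ^ 8 * g p z ^ 2) +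
      c8 n m D * (1 + τ ^ 2) * δ * g p z ^ 2 +
      c8 n m D * (uu z * ∑ k, Ax k (fun z => psi ζ z * g p z) z ^ 2) +
      c8 n m D * δ * (om ζ z * ∑ k, Ax k (g p) z ^ 2)) := by
  have hw := wu_pos hz
  have hw1 := wu_le hz
  have h0 := hζ.nn z
  have h1 := hζ.le z
  have hB : ∀ i, |Ax i (psi ζ) z| ≤ ζ z ^ 3 * (ζ z + 4 * δ) := by
    intro i
    refine (abs_Axpsi hζ i hz).trans ?_
    have : wu z * ζ z ^ 3 ≤ ζ z ^ 3 := by
      have : 0 ≤ ζ z ^ 3 := by positivity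
      nlinarith
    exact mul_le_mul_of_nonneg_right this (by positivity)
  have hB2 : (ζ z ^ 3 * (ζ z + 4 * δ)) ^ 2 ≤ 32 * (ζ z ^ 8 + δ) := by
    have h5 : (ζ z + 4 * δ) ^ 2 ≤ 2 * ζ z ^ 2 + 32 * δ ^ 2 := by
      nlinarith [sq_nonneg (ζ z - 4 * δ)]
    have h6 := mul_le_mul_of_nonneg_left h5 (by positivity : 0 ≤ ζ z ^ 6)
    have h7 : ζ z ^ 6 ≤ 1 := pow_le_one₀ h0 h1
    have h8 : δ ^ 2 ≤ δ := pow_le_of_le_one hδ0 hδ (by norm_num)
    have h9 : ζ z ^ 6 * δ ^ 2 ≤ 1 * δ := mul_le_mul h7 h8 (by positivity) zero_le_one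
    have h10 : 0 ≤ ζ z ^ 8 := by positivity
    nlinarith
  have hE := Ex_sq he (ψ := psi ζ) g hz hB
  have hG0 : 0 ≤ ∑ q, g q z ^ 2 := Finset.sum_nonneg fun _ _ => sq_nonneg _
  have hE2 : ∑ p, (∑ q, Et e (psi ζ) p q z * g q z) ^ 2 ≤
      ∑ p, 32 * m ^ 2 * n ^ 2 * D ^ 2 * ((ζ z ^ 8 + δ) * g p z ^ 2) := by
    refine hE.trans ?_
    rw [← Finset.mul_sum, ← Finset.mul_sum]
    have := mul_le_mul_of_nonneg_right (mul_le_mul_of_nonneg_left hB2
      (by positivity : (0 : ℝ) ≤ m ^ 2 * n ^ 2 * D ^ 2)) hG0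
    linarith
  have hN : ∀ p, NnG s e τ (psi ζ) g p z ^ 2 ≤ 11 / 10 * Nn s τ (psi ζ) (g p) z ^ 2 +
      11 * (∑ q, Et e (psi ζ) p q z * g q z) ^ 2 := by
    intro p
    unfold NnG
    nlinarith [sq_nonneg (Nn s τ (psi ζ) (g p) z - 10 * ∑ q, Et e (psi ζ) p q z * g q z)]
  refine (Finset.sum_le_sum fun p _ => hN p).trans ?_
  rw [Finset.sum_add_distrib, ← Finset.mul_sum (f := fun p => (∑ q, Et e (psi ζ) p q z * g q z) ^ 2)]
  refine (add_le_add_right (mul_le_mul_of_nonneg_left hE2 (by norm_num : (0 : ℝ) ≤ 11)) _).trans ?_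
  rw [Finset.mul_sum, ← Finset.sum_add_distrib]
  refine Finset.sum_le_sum fun p _ => ?_
  have h2 := pt2 hn hs hε hζ hδ0 hδ τ (hg p) hz
  have hom : 0 ≤ om ζ z := by unfold om; positivity
  have hu := uu_pos hz
  have hAF0 : 0 ≤ ∑ k, Ax k (fun z => psi ζ z * g p z) z ^ 2 :=
    Finset.sum_nonneg fun _ _ => sq_nonneg _
  have hAG0 : 0 ≤ ∑ k, Ax k (g p) z ^ 2 := Finset.sum_nonneg fun _ _ => sq_nonneg _
  generalize ∑ k, Ax k (fun z => psi ζ z * g p z) z ^ 2 = AF at *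
  generalize ∑ k, Ax k (g p) z ^ 2 = AG at *
  have r1 : 0 ≤ (m : ℝ) ^ 2 * n ^ 2 * D ^ 2 * (uu z * AF) := by positivity
  have r2 : 0 ≤ (m : ℝ) ^ 2 * n ^ 2 * D ^ 2 * (δ * (om ζ z * AG)) := by positivity
  have r3 : 0 ≤ (m : ℝ) ^ 2 * n ^ 2 * D ^ 2 * (τ ^ 2 * δ * g p z ^ 2) := by positivity
  unfold c8
  linear_combination 11 / 10 * h2 + 352 * r1 + 352 * r2 + 352 * r3

theorem tu_NnG (hs : TS n K ε s) (he : CB D e) (τ : ℝ) {ψ : VV n → ℝ} {g : Fin m → VV n → ℝ}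
    (hψ : SU ψ) (hg : ∀ p, TU (g p)) (p : Fin m) : TU (NnG s e τ ψ g p) :=
  (tu_Nn hs τ hψ (hg p)).add (TU.sum _ fun q _ => (hg q).mul_left (su_Et he hψ p q))

/-! ## The interior estimate -/

theorem iv_id (hs : TS n K ε s) (hζ : Zt δ ζ) (τ : ℝ) {g Q R : VV n → ℝ} (hg : TU g) (hQ : TU Q)
    (hR : TU R) (h : ∀ z ∈ Un n, Q z = Px s (-τ) g z + R z) :
    In (fun z => om ζ z * Gm s g g z) =
      In (fun z => -(g z * Gm s g (om ζ) z) - om ζ z * g z * Q z + vp s z.1 * om ζ z * g z ^ 2 +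
        τ * (g z ^ 2 * Gm s uu (om ζ) z) + τ ^ 2 * (Fxs s z * om ζ z * g z ^ 2)) +
      In (fun z => om ζ z * g z * R z) := by
  have sg := hg.su
  have so := su_om hζ
  have t1 : TU fun z => om ζ z * g z := hg.mul_left so
  have e1 := In_L0 hs sg t1
  have e2 := In_fK hs hg so
  have u0 : TU fun z => g z ^ 2 := hg.pow two_ne_zero
  have u1 : TU fun z => g z * Gm s g (om ζ) z := hg.mul_right (su_Gm hs sg so)
  have u2 : TU fun z => om ζ z * g z * Q z := hQ.mul_left (so.mul sg)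
  have uR : TU fun z => om ζ z * g z * R z := hR.mul_left (so.mul sg)
  have u3 : TU fun z => vp s z.1 * om ζ z * g z ^ 2 := u0.mul_left ((su_vp hs).mul so)
  have u4 : TU fun z => g z ^ 2 * Gm s uu (om ζ) z := u0.mul_right (su_Gm hs su_uu so)
  have u5 : TU fun z => Fxs s z * om ζ z * g z ^ 2 := u0.mul_left ((su_Fxs hs).mul so)
  have u6 : TU fun z => om ζ z * g z * Kxs s g z := (tu_Kxs hs hg).mul_left (so.mul sg)
  have u7 : TU fun z => om ζ z * Gm s g g z := (tu_Gm_right hs sg hg).mul_left so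
  -- the identity
  have e3 : In (fun z => om ζ z * Gm s g g z + g z * Gm s g (om ζ) z) =
      In (Gm s g fun z => om ζ z * g z) :=
    In_congr fun z hz => (Gm_mul s g so sg hz).symm
  have e4 : In (fun z => L0 s g z * (om ζ z * g z)) =
      In (fun z => (om ζ z * g z * Q z - om ζ z * g z * R z) - vp s z.1 * om ζ z * g z ^ 2 +
        τ * (om ζ z * g z * Kxs s g z) - τ ^ 2 * (Fxs s z * om ζ z * g z ^ 2)) := by
    refine In_congr fun z hz => ?_
    rw [h z hz, Px_eq]; ring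
  rw [In_add u7 u1] at e3
  rw [In_sub (((u2.sub uR).sub u3).add (u6.mul_left contDiffOn_const)) (u5.mul_left contDiffOn_const),
    In_add ((u2.sub uR).sub u3) (u6.mul_left contDiffOn_const), In_sub (u2.sub uR) u3,
    In_sub u2 uR, In_cmul, In_cmul, e2] at e4
  rw [In_add (((u1.neg.sub u2).add u3).add (u4.mul_left contDiffOn_const))
        (u5.mul_left contDiffOn_const), In_add ((u1.neg.sub u2).add u3)
        (u4.mul_left contDiffOn_const), In_add (u1.neg.sub u2) u3, In_sub u1.neg u2, In_neg,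
        In_cmul, In_cmul]
  linarith

/-- A constant. -/
def c9 (n m : ℕ) (D : ℝ) : ℝ := 4 * (c6' n + 3 + 2 * cR n m D)

theorem ivG (hn : 3 ≤ n) (hs : TS n K ε s) (hε : ε ≤ 1 / (96 * (n : ℝ) ^ 4)) (he : CB D e)
    (hζ : Zt δ ζ) (hδ : δ ≤ 1) (hτ : 0 ≤ τ) {g : Fin m → VV n → ℝ} (hg : ∀ p, TU (g p)) :
    ∑ p, In (fun z => om ζ z * ∑ k, Ax k (g p) z ^ 2) ≤
      4 * ∑ p, In (fun z => PxG s e (-τ) (fun p z => psi ζ z * g p z) p z ^ 2) +
      4 * ∑ p, In (fun z => NnG s e τ (psi ζ) g p z ^ 2) +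
      c9 n m D * (1 + τ ^ 2) * ∑ p, In (fun z => g p z ^ 2) := by
  have hnR : (3 : ℝ) ≤ n := by exact_mod_cast hn
  have sg : ∀ p, SU (g p) := fun p => (hg p).su
  have so := su_om hζ
  have sp := su_psi hζ
  have hR := cR_nonneg n m D
  have u0 : ∀ p, TU fun z => g p z ^ 2 := fun p => (hg p).pow two_ne_zero
  have tf : ∀ p, TU fun z => psi ζ z * g p z := fun p => (hg p).mul_left sp
  have tR : ∀ p, TU (Rx e (-τ) g p) := tu_Rx he (-τ) hg
  have tQ : ∀ p, TU (PxG s e (-τ) g p) := tu_PxG hs he (-τ) hg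
  have uA : ∀ p, TU fun z => om ζ z * ∑ k, Ax k (g p) z ^ 2 := fun p =>
    (TU.sum _ fun k _ => ((hg p).ax k).pow two_ne_zero).mul_left so
  have uQ : ∀ p, TU fun z => PxG s e (-τ) (fun p z => psi ζ z * g p z) p z ^ 2 := fun p =>
    (tu_PxG hs he (-τ) tf p).pow two_ne_zero
  have uN : ∀ p, TU fun z => NnG s e τ (psi ζ) g p z ^ 2 := fun p =>
    (tu_NnG hs he τ sp hg p).pow two_ne_zero
  have u1 : ∀ p, TU fun z => g p z * Gm s (g p) (om ζ) z := fun p =>
    (hg p).mul_right (su_Gm hs (sg p) so)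
  have u2 : ∀ p, TU fun z => om ζ z * g p z * PxG s e (-τ) g p z := fun p =>
    (tQ p).mul_left (so.mul (sg p))
  have uR : ∀ p, TU fun z => om ζ z * g p z * Rx e (-τ) g p z := fun p =>
    (tR p).mul_left (so.mul (sg p))
  have u3 : ∀ p, TU fun z => vp s z.1 * om ζ z * g p z ^ 2 := fun p =>
    (u0 p).mul_left ((su_vp hs).mul so)
  have u4 : ∀ p, TU fun z => g p z ^ 2 * Gm s uu (om ζ) z := fun p =>
    (u0 p).mul_right (su_Gm hs su_uu so)
  have u5 : ∀ p, TU fun z => Fxs s z * om ζ z * g p z ^ 2 := fun p =>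
    (u0 p).mul_left ((su_Fxs hs).mul so)
  have u7 : ∀ p, TU fun z => om ζ z * Gm s (g p) (g p) z := fun p =>
    (tu_Gm_right hs (sg p) (hg p)).mul_left so
  -- the bound for the main part
  have k1 : ∀ p, In (fun z => -(g p z * Gm s (g p) (om ζ) z) -
        om ζ z * g p z * PxG s e (-τ) g p z + vp s z.1 * om ζ z * g p z ^ 2 +
        τ * (g p z ^ 2 * Gm s uu (om ζ) z) + τ ^ 2 * (Fxs s z * om ζ z * g p z ^ 2)) ≤
      1 / 4 * In (fun z => om ζ z * ∑ k, Ax k (g p) z ^ 2) +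
      In (fun z => PxG s e (-τ) (fun p z => psi ζ z * g p z) p z ^ 2) +
      In (fun z => NnG s e τ (psi ζ) g p z ^ 2) +
      c6' n * (1 + τ ^ 2) * In (fun z => g p z ^ 2) := by
    intro p
    have key := In_mono (((((u1 p).neg.sub (u2 p)).add (u3 p)).add
      ((u4 p).mul_left contDiffOn_const)).add
      ((u5 p).mul_left contDiffOn_const)) (((((uA p).mul_left contDiffOn_const).add (uQ p)).add
        (uN p)).add ((u0 p).mul_left contDiffOn_const)) fun z hz => by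
      have := iv_pt' hn hs hε hζ hδ hτ (g p) (PxG s e (-τ) g p z) (NnG s e τ (psi ζ) g p z) hz
      rw [← PxG_mul hs e τ sp sg p hz] at this
      exact this
    rw [In_add ((((uA p).mul_left contDiffOn_const).add (uQ p)).add (uN p))
      ((u0 p).mul_left contDiffOn_const), In_add (((uA p).mul_left contDiffOn_const).add (uQ p))
      (uN p), In_add ((uA p).mul_left contDiffOn_const) (uQ p), In_cmul, In_cmul] at key
    exact key
  -- the bound for the lower order part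
  have k2 : ∑ p, In (fun z => om ζ z * g p z * Rx e (-τ) g p z) ≤
      ∑ p, In (fun z => 1 / 8 * (om ζ z * ∑ k, Ax k (g p) z ^ 2) +
        (3 + 2 * cR n m D) * (1 + τ ^ 2) * g p z ^ 2) := by
    refine sum_mono uR (fun p => ((uA p).mul_left contDiffOn_const).add
      ((u0 p).mul_left contDiffOn_const)) fun z hz => ?_
    have hw := wu_pos hz
    have hw1 := wu_le hz
    have hwu := wu_mul hz
    have h0 := hζ.nn z
    have h1 := hζ.le z
    have hu := uu_ge hz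
    have hom : om ζ z = wu z ^ 2 * ζ z ^ 6 := rfl
    have hom0 : 0 ≤ om ζ z := by rw [hom]; positivity
    have z6 : ζ z ^ 6 ≤ 1 := pow_le_one₀ h0 h1
    have hom1 : om ζ z ≤ 1 := by
      rw [hom]
      exact mul_le_one₀ (pow_le_one₀ hw.le hw1) (by positivity) z6
    have hom2 : om ζ z * (uu z ^ 2 - 1) ≤ 1 := by
      have : wu z ^ 2 * uu z ^ 2 = 1 := by rw [← mul_pow, hwu, one_pow]
      have e1 : om ζ z * uu z ^ 2 = ζ z ^ 6 := by rw [hom]; linear_combination ζ z ^ 6 * this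
      nlinarith
    have hRx := Rx_sq hn he (-τ) g hz
    set C1 := cR n m D + 1 with hC1
    have hC0 : 0 < C1 := by linarith
    set S := ∑ q, (∑ k, Ax k (g q) z ^ 2 + (-τ) ^ 2 * (uu z ^ 2 - 1) * g q z ^ 2 + g q z ^ 2) with hS
    have hu2 : 0 ≤ uu z ^ 2 - 1 := by nlinarith
    have hS0 : 0 ≤ S := Finset.sum_nonneg fun q _ => by
      have : 0 ≤ ∑ k, Ax k (g q) z ^ 2 := Finset.sum_nonneg fun _ _ => sq_nonneg _
      positivity
    set G := ∑ p, g p z ^ 2 with hG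
    have hG0 : 0 ≤ G := Finset.sum_nonneg fun _ _ => sq_nonneg _
    have a1 : 8 * C1 * ∑ p, om ζ z * g p z * Rx e (-τ) g p z ≤
        om ζ z * (∑ p, Rx e (-τ) g p z ^ 2 + 16 * C1 ^ 2 * G) := by
      rw [hG, Finset.mul_sum, Finset.mul_sum, ← Finset.sum_add_distrib, Finset.mul_sum]
      refine Finset.sum_le_sum fun p _ => ?_
      have := mul_nonneg hom0 (sq_nonneg (Rx e (-τ) g p z - 4 * C1 * g p z))
      linarith
    have a2 : om ζ z * (∑ p, Rx e (-τ) g p z ^ 2 + 16 * C1 ^ 2 * G) ≤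
        8 * C1 * (1 / 8 * (om ζ z * S) + 2 * C1 * (om ζ z * G)) := by
      have h3 : ∑ p, Rx e (-τ) g p z ^ 2 ≤ C1 * S := hRx.trans (by rw [hC1]; linarith)
      have h4 := mul_le_mul_of_nonneg_left h3 hom0
      linarith
    have a3 := le_of_mul_le_mul_left (a1.trans a2) (by positivity : 0 < 8 * C1)
    refine a3.trans ?_
    have a4 : om ζ z * S ≤ om ζ z * ∑ q, ∑ k, Ax k (g q) z ^ 2 + (1 + τ ^ 2) * G := by
      have e2 : S = ∑ q, ∑ k, Ax k (g q) z ^ 2 + τ ^ 2 * (uu z ^ 2 - 1) * G + G := by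
        rw [hS, hG, Finset.sum_add_distrib, Finset.sum_add_distrib, ← Finset.mul_sum]
        ring
      rw [e2]
      have b1 := mul_le_mul_of_nonneg_right hom2 (by positivity : 0 ≤ τ ^ 2 * G)
      have b2 := mul_le_mul_of_nonneg_right hom1 hG0
      linarith
    have a5 : om ζ z * G ≤ (1 + τ ^ 2) * G := by
      have b2 := mul_le_mul_of_nonneg_right hom1 hG0
      have b3 : 0 ≤ τ ^ 2 * G := by positivity
      linarith
    have a6 : ∑ p, (1 / 8 * (om ζ z * ∑ k, Ax k (g p) z ^ 2) +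
        (3 + 2 * cR n m D) * (1 + τ ^ 2) * g p z ^ 2) =
        1 / 8 * (om ζ z * ∑ q, ∑ k, Ax k (g q) z ^ 2) + (3 + 2 * cR n m D) * (1 + τ ^ 2) * G := by
      rw [Finset.sum_add_distrib, ← Finset.mul_sum, ← Finset.mul_sum, ← Finset.mul_sum]
    rw [a6]
    have a7 := mul_le_mul_of_nonneg_left a5 (by positivity : 0 ≤ 2 * C1)
    have a8 : 0 ≤ (1 + τ ^ 2) * G := by positivity
    rw [hC1] at a7 ⊢
    linarith
  have e2 : ∀ p, In (fun z => 1 / 8 * (om ζ z * ∑ k, Ax k (g p) z ^ 2) +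
        (3 + 2 * cR n m D) * (1 + τ ^ 2) * g p z ^ 2) =
        1 / 8 * In (fun z => om ζ z * ∑ k, Ax k (g p) z ^ 2) +
        (3 + 2 * cR n m D) * (1 + τ ^ 2) * In (fun z => g p z ^ 2) := fun p => by
    rw [In_add ((uA p).mul_left contDiffOn_const) ((u0 p).mul_left contDiffOn_const), In_cmul,
      In_cmul]
  simp only [e2] at k2
  -- the lower bound
  have k3 : ∀ p, 3 / 4 * In (fun z => om ζ z * ∑ k, Ax k (g p) z ^ 2) ≤
      In (fun z => om ζ z * Gm s (g p) (g p) z) := by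
    intro p
    rw [← In_cmul]
    refine In_mono ((uA p).mul_left contDiffOn_const) (u7 p) fun z hz => ?_
    have h0 := hζ.nn z
    have hom0 : 0 ≤ om ζ z := by have := wu_pos hz; unfold om; positivity
    have h2 := (abs_le.1 (Gm_self hs (by omega) (g p) z)).1
    have hA0 : 0 ≤ ∑ k, Ax k (g p) z ^ 2 := Finset.sum_nonneg fun _ _ => sq_nonneg _
    have h5 : (n : ℝ) ^ 2 * ε ≤ 1 / 4 := by
      rw [le_div_iff₀ (by positivity)] at hε
      have h9 : (9 : ℝ) ≤ n ^ 2 := by nlinarith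
      have hε0 := ts_nonneg hs ⟨0, by omega⟩ ⟨0, by omega⟩
      have h10 : 0 ≤ (n : ℝ) ^ 2 * ε := by positivity
      nlinarith
    have h6 := mul_le_mul_of_nonneg_right h5 hA0
    have h7 : 3 / 4 * ∑ k, Ax k (g p) z ^ 2 ≤ Gm s (g p) (g p) z := by linarith
    have h8 := mul_le_mul_of_nonneg_left h7 hom0
    linarith
  have k4 : ∀ p, In (fun z => om ζ z * Gm s (g p) (g p) z) ≤
      1 / 4 * In (fun z => om ζ z * ∑ k, Ax k (g p) z ^ 2) +
      In (fun z => PxG s e (-τ) (fun p z => psi ζ z * g p z) p z ^ 2) +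
      In (fun z => NnG s e τ (psi ζ) g p z ^ 2) +
      c6' n * (1 + τ ^ 2) * In (fun z => g p z ^ 2) +
      In (fun z => om ζ z * g p z * Rx e (-τ) g p z) := fun p => by
    rw [iv_id hs hζ τ (hg p) (tQ p) (tR p) fun z _ => PxG_eq s e (-τ) g p z]
    linarith [k1 p]
  have k5 := Finset.sum_le_sum fun p (_ : p ∈ Finset.univ) => (k3 p).trans (k4 p)
  rw [Finset.sum_add_distrib, Finset.sum_add_distrib, Finset.sum_add_distrib,
    Finset.sum_add_distrib, ← Finset.mul_sum, ← Finset.mul_sum, ← Finset.mul_sum] at k5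
  rw [Finset.sum_add_distrib, ← Finset.mul_sum, ← Finset.mul_sum] at k2
  unfold c9
  have hI0 : 0 ≤ ∑ p, In (fun z => g p z ^ 2) :=
    Finset.sum_nonneg fun p _ => In_nonneg fun z _ => sq_nonneg _
  have hq0 : 0 ≤ ∑ p, In (fun z => PxG s e (-τ) (fun p z => psi ζ z * g p z) p z ^ 2) :=
    Finset.sum_nonneg fun p _ => In_nonneg fun z _ => sq_nonneg _
  have hN0 : 0 ≤ ∑ p, In (fun z => NnG s e τ (psi ζ) g p z ^ 2) :=
    Finset.sum_nonneg fun p _ => In_nonneg fun z _ => sq_nonneg _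
  have hI1 : 0 ≤ (1 + τ ^ 2) * ∑ p, In (fun z => g p z ^ 2) := by positivity
  have hI2 : 0 ≤ cR n m D * ((1 + τ ^ 2) * ∑ p, In (fun z => g p z ^ 2)) := by positivity
  have hI3 : 0 ≤ c6' n * ((1 + τ ^ 2) * ∑ p, In (fun z => g p z ^ 2)) := by
    have : 0 ≤ c6' n := by unfold c6'; positivity
    positivity
  generalize ∑ p, In (fun z => om ζ z * ∑ k, Ax k (g p) z ^ 2) = W at *
  generalize ∑ p, In (fun z => PxG s e (-τ) (fun p z => psi ζ z * g p z) p z ^ 2) = q at *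
  generalize ∑ p, In (fun z => NnG s e τ (psi ζ) g p z ^ 2) = N at *
  generalize ∑ p, In (fun z => g p z ^ 2) = I at *
  generalize ∑ p, In (fun z => om ζ z * g p z * Rx e (-τ) g p z) = X at *
  linarith

/-! ## The inequality -/

theorem arithG {q N W M I A δ τ C : ℝ} (hC : 1 ≤ C) (hδ0 : 0 ≤ δ) (hδ : δ ≤ 1 / (80 * C))
    (hτ : 5 * C ≤ τ) (hM : 0 ≤ M) (hI : 0 ≤ I) (hA : 0 ≤ A) (hq0 : 0 ≤ q) (hN0 : 0 ≤ N)
    (hq : 9 / 10 * (τ * A + 14 * τ ^ 2 * M) ≤ q)
    (hN : N ≤ (11 / 2 * τ ^ 2 + C) * M + C * (1 + τ ^ 2) * δ * I + C * A + C * δ * W)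
    (hW : W ≤ 4 * q + 4 * N + C * (1 + τ ^ 2) * I) :
    τ ^ 2 * M - 4 * C ^ 2 * (1 + τ ^ 2) * δ * I ≤
      9 / 10 * q - 11 / 10 * N - C * M - C * δ * I := by
  have hC0 : 0 < C := by linarith
  have hτ0 : 0 < τ := by linarith
  have hδC : C * δ ≤ 1 / 80 := by
    have := mul_le_mul_of_nonneg_left hδ hC0.le
    have e : C * (1 / (80 * C)) = 1 / 80 := by field_simp
    linarith
  have hδC0 : 0 ≤ C * δ := by positivity
  have h1 : C * δ * W ≤ (q + N) / 20 + C ^ 2 * (1 + τ ^ 2) * δ * I := by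
    have h2 := mul_le_mul_of_nonneg_left hW hδC0
    have h3 := mul_le_mul_of_nonneg_right hδC (by positivity : 0 ≤ 4 * q + 4 * N)
    linarith
  have h2 : 19 / 20 * N ≤ (11 / 2 * τ ^ 2 + C) * M + (C + C ^ 2) * (1 + τ ^ 2) * δ * I + C * A
      + q / 20 := by linarith
  have h3 : C * (1 + τ ^ 2) * δ * I ≤ C ^ 2 * (1 + τ ^ 2) * δ * I := by
    have : C ≤ C ^ 2 := by nlinarith
    have := mul_le_mul_of_nonneg_right this (by positivity : 0 ≤ (1 + τ ^ 2) * δ * I)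
    linarith
  have h4 : C * δ * I ≤ C ^ 2 * (1 + τ ^ 2) * δ * I := by
    refine le_trans ?_ h3
    have : 0 ≤ C * τ ^ 2 * δ * I := by positivity
    linarith
  have h5 : C * M ≤ τ ^ 2 * M := by
    apply mul_le_mul_of_nonneg_right _ hM
    nlinarith
  have h6 : C * A ≤ τ / 5 * A := by
    apply mul_le_mul_of_nonneg_right _ hA
    linarith
  have h7 : 0 ≤ τ ^ 2 * M := by positivity
  have h8 : 0 ≤ τ * A := by positivity
  have h9 : 0 ≤ C ^ 2 * (1 + τ ^ 2) * δ * I := by positivity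
  linear_combination (22 / 19) * h2 + (16 / 19) * hq + (22 / 19) * h3 + h4 +
    (41 / 19) * h5 + (22 / 19) * h6 + (103 / 95) * h7 + (50 / 95) * h8 + (13 / 19) * h9

/-- The common constant. -/
def c10 (n m : ℕ) (D : ℝ) : ℝ := 1 + c1 n ^ 2 + c2 n + c4 n + c8 n m D + c9 n m D + 80 * cR n m D

/-- The localised inequality in one factor. -/
theorem facG (hn : 3 ≤ n) (hs : TS n K ε s) (hK : 1 ≤ K) (hε : ε ≤ 1 / (96 * (n : ℝ) ^ 4))
    (he : CB D e) (he' : CB D (HY.adj e)) (hζ : Zt δ ζ) (hδ0 : 0 ≤ δ)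
    (hδ : δ ≤ 1 / (80 * c10 n m D)) (hτ : 5 * c10 n m D ≤ τ) {g : Fin m → VV n → ℝ}
    (hg : ∀ p, TU (g p)) :
    τ ^ 2 * ∑ p, In (fun z => ζ z ^ 8 * g p z ^ 2) -
        4 * c10 n m D ^ 2 * (1 + τ ^ 2) * δ * ∑ p, In (fun z => g p z ^ 2) ≤
      ∑ p, In (fun z => PxG s e τ (PxG s (HY.adj e) (-τ) g) p z *
        (psi ζ z * (psi ζ z * g p z))) := by
  have hnR : (3 : ℝ) ≤ n := by exact_mod_cast hn
  have hε1 : ε ≤ 1 := hε.trans (eps_le hn)
  have k1 : 0 ≤ c1 n ^ 2 := sq_nonneg _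
  have k2 : 0 ≤ c2 n := by unfold c2; positivity
  have k3 : 0 ≤ c3 n := by unfold c3; positivity
  have k4 : 0 ≤ c4 n := by unfold c4; positivity
  have k5 : 0 ≤ c5 n := by unfold c5; positivity
  have k6 : 0 ≤ c6' n := by unfold c6'; positivity
  have kR := cR_nonneg n m D
  have k8 : 0 ≤ c8 n m D := by unfold c8; positivity
  have k9 : 0 ≤ c9 n m D := by unfold c9; positivity
  have hC : 1 ≤ c10 n m D := by unfold c10; linarith
  have hC0 : 0 < c10 n m D := by linarith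
  have hδ1 : δ ≤ 1 := by
    refine hδ.trans ?_
    rw [div_le_one (by positivity)]
    linarith
  have hτ0 : 0 < τ := by linarith
  have hτ1 : 4 * (c1 n ^ 2 + c2 n) + 1 ≤ τ := by
    refine le_trans ?_ hτ
    unfold c10
    linarith
  have hτR : 400 * cR n m D ≤ τ := by
    refine le_trans ?_ hτ
    unfold c10
    linarith
  have sg : ∀ p, SU (g p) := fun p => (hg p).su
  have so := su_om hζ
  have sp := su_psi hζ
  have tf : ∀ p, TU fun z => psi ζ z * g p z := fun p => (hg p).mul_left sp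
  have u0 : ∀ p, TU fun z => g p z ^ 2 := fun p => (hg p).pow two_ne_zero
  have uA : ∀ p, TU fun z => om ζ z * ∑ k, Ax k (g p) z ^ 2 := fun p =>
    (TU.sum _ fun k _ => ((hg p).ax k).pow two_ne_zero).mul_left so
  have uF : ∀ p, TU fun z => uu z * ∑ k, Ax k (fun z => psi ζ z * g p z) z ^ 2 := fun p =>
    (TU.sum _ fun k _ => ((tf p).ax k).pow two_ne_zero).mul_left su_uu
  have uQ : ∀ p, TU fun z => PxG s (HY.adj e) (-τ) (fun p z => psi ζ z * g p z) p z ^ 2 :=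
    fun p => (tu_PxG hs he' (-τ) tf p).pow two_ne_zero
  have uN : ∀ p, TU fun z => NnG s (HY.adj e) τ (psi ζ) g p z ^ 2 := fun p =>
    (tu_NnG hs he' τ sp hg p).pow two_ne_zero
  have uM : ∀ p, TU fun z => ζ z ^ 8 * g p z ^ 2 := fun p => (u0 p).mul_left (hζ.tu.su.pow 8)
  have uE : ∀ p, TU fun z => 2 * Gm s (psi ζ) (psi ζ) z * g p z * PxG s (HY.adj e) (-τ) g p z :=
    fun p => (tu_PxG hs he' (-τ) hg p).mul_left
      ((contDiffOn_const.mul (su_Gm hs sp sp)).mul (sg p))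
  rw [imsG hs he he' τ sp hg]
  -- lower bound
  have hq := lbG' hn hs hK hε he' hτ1 hτR tf
  have eM : ∀ p, In (fun z => uu z ^ 2 * (psi ζ z * g p z) ^ 2) =
      In (fun z => ζ z ^ 8 * g p z ^ 2) := by
    intro p
    refine In_congr fun z hz => ?_
    have h1 := wu_mul hz
    have h2 : wu z ^ 2 * uu z ^ 2 = 1 := by rw [← mul_pow, h1, one_pow]
    unfold psi
    linear_combination ζ z ^ 8 * g p z ^ 2 * h2
  simp only [eM] at hq
  -- the pointwise bounds
  have p1 : ∀ p, 9 / 10 * In (fun z => PxG s (HY.adj e) (-τ) (fun p z => psi ζ z * g p z) p z ^ 2) -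
      11 / 10 * In (fun z => NnG s (HY.adj e) τ (psi ζ) g p z ^ 2) -
      c4 n * In (fun z => ζ z ^ 8 * g p z ^ 2) - c4 n * δ * In (fun z => g p z ^ 2) ≤
      In (fun z => PxG s (HY.adj e) (-τ) (fun p z => psi ζ z * g p z) p z ^ 2 -
        NnG s (HY.adj e) τ (psi ζ) g p z ^ 2 +
        2 * Gm s (psi ζ) (psi ζ) z * g p z * PxG s (HY.adj e) (-τ) g p z) := by
    intro p
    have p1 := In_mono ((((uQ p).mul_left contDiffOn_const).sub
      ((uN p).mul_left contDiffOn_const)).sub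
      ((uM p).mul_left contDiffOn_const) |>.sub ((u0 p).mul_left contDiffOn_const))
      (((uQ p).sub (uN p)).add (uE p)) fun z hz => by
        have := pt1' hs hε1 hζ hδ0 hδ1 (g p z) (PxG s (HY.adj e) (-τ) g p z)
          (NnG s (HY.adj e) τ (psi ζ) g p z) hz
        rw [← PxG_mul hs (HY.adj e) τ sp sg p hz] at this
        exact this
    rw [In_sub ((((uQ p).mul_left contDiffOn_const).sub ((uN p).mul_left contDiffOn_const)).sub
      ((uM p).mul_left contDiffOn_const)) ((u0 p).mul_left contDiffOn_const),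
      In_sub (((uQ p).mul_left contDiffOn_const).sub ((uN p).mul_left contDiffOn_const))
      ((uM p).mul_left contDiffOn_const), In_sub ((uQ p).mul_left contDiffOn_const)
      ((uN p).mul_left contDiffOn_const), In_cmul, In_cmul, In_cmul, In_cmul] at p1
    exact p1
  have p1' := Finset.sum_le_sum fun p (_ : p ∈ Finset.univ) => p1 p
  rw [Finset.sum_sub_distrib, Finset.sum_sub_distrib, Finset.sum_sub_distrib, ← Finset.mul_sum,
    ← Finset.mul_sum, ← Finset.mul_sum, ← Finset.mul_sum] at p1'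
  have p2 := sum_mono uN (fun p => ((((uM p).mul_left contDiffOn_const).add
      ((u0 p).mul_left contDiffOn_const)).add
      ((uF p).mul_left contDiffOn_const)).add ((uA p).mul_left contDiffOn_const))
      fun z hz => pt2G hn hs hε he' hζ hδ0 hδ1 τ sg hz
  have e3 : ∀ p, In (fun z => (11 / 2 * τ ^ 2 + c8 n m D) * (ζ z ^ 8 * g p z ^ 2) +
      c8 n m D * (1 + τ ^ 2) * δ * g p z ^ 2 +
      c8 n m D * (uu z * ∑ k, Ax k (fun z => psi ζ z * g p z) z ^ 2) +
      c8 n m D * δ * (om ζ z * ∑ k, Ax k (g p) z ^ 2)) =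
      (11 / 2 * τ ^ 2 + c8 n m D) * In (fun z => ζ z ^ 8 * g p z ^ 2) +
      c8 n m D * (1 + τ ^ 2) * δ * In (fun z => g p z ^ 2) +
      c8 n m D * In (fun z => uu z * ∑ k, Ax k (fun z => psi ζ z * g p z) z ^ 2) +
      c8 n m D * δ * In (fun z => om ζ z * ∑ k, Ax k (g p) z ^ 2) := by
    intro p
    rw [In_add ((((uM p).mul_left contDiffOn_const).add ((u0 p).mul_left contDiffOn_const)).add
      ((uF p).mul_left contDiffOn_const)) ((uA p).mul_left contDiffOn_const),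
      In_add (((uM p).mul_left contDiffOn_const).add ((u0 p).mul_left contDiffOn_const))
      ((uF p).mul_left contDiffOn_const), In_add ((uM p).mul_left contDiffOn_const)
      ((u0 p).mul_left contDiffOn_const), In_cmul, In_cmul, In_cmul, In_cmul]
  simp only [e3] at p2
  rw [Finset.sum_add_distrib, Finset.sum_add_distrib, Finset.sum_add_distrib, ← Finset.mul_sum,
    ← Finset.mul_sum, ← Finset.mul_sum, ← Finset.mul_sum] at p2
  have p3 := ivG hn hs hε he' hζ hδ1 hτ0.le hg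
  have hM0 : 0 ≤ ∑ p, In (fun z => ζ z ^ 8 * g p z ^ 2) :=
    Finset.sum_nonneg fun p _ => In_nonneg fun z _ => by
      have := hζ.nn z; positivity
  have hI0 : 0 ≤ ∑ p, In (fun z => g p z ^ 2) :=
    Finset.sum_nonneg fun p _ => In_nonneg fun z _ => sq_nonneg _
  have hA0 : 0 ≤ ∑ p, In (fun z => uu z * ∑ k, Ax k (fun z => psi ζ z * g p z) z ^ 2) :=
    Finset.sum_nonneg fun p _ => In_nonneg fun z hz =>
      mul_nonneg (uu_pos hz).le (Finset.sum_nonneg fun _ _ => sq_nonneg _)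
  have hW0 : 0 ≤ ∑ p, In (fun z => om ζ z * ∑ k, Ax k (g p) z ^ 2) :=
    Finset.sum_nonneg fun p _ => In_nonneg fun z hz => by
      have h1 := hζ.nn z
      have h2 := wu_pos hz
      refine mul_nonneg ?_ (Finset.sum_nonneg fun _ _ => sq_nonneg _)
      unfold om; positivity
  have hq0 : 0 ≤ ∑ p, In (fun z => PxG s (HY.adj e) (-τ) (fun p z => psi ζ z * g p z) p z ^ 2) :=
    Finset.sum_nonneg fun p _ => In_nonneg fun z _ => sq_nonneg _
  have hN0 : 0 ≤ ∑ p, In (fun z => NnG s (HY.adj e) τ (psi ζ) g p z ^ 2) :=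
    Finset.sum_nonneg fun p _ => In_nonneg fun z _ => sq_nonneg _
  refine le_trans ?_ p1'
  generalize ∑ p, In (fun z => PxG s (HY.adj e) (-τ) (fun p z => psi ζ z * g p z) p z ^ 2) = q at *
  generalize ∑ p, In (fun z => NnG s (HY.adj e) τ (psi ζ) g p z ^ 2) = N at *
  generalize ∑ p, In (fun z => ζ z ^ 8 * g p z ^ 2) = M at *
  generalize ∑ p, In (fun z => g p z ^ 2) = I at *
  generalize ∑ p, In (fun z => uu z * ∑ k, Ax k (fun z => psi ζ z * g p z) z ^ 2) = A at *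
  generalize ∑ p, In (fun z => om ζ z * ∑ k, Ax k (g p) z ^ 2) = W at *
  have l4 : c4 n ≤ c10 n m D := by unfold c10; linarith
  have l8 : c8 n m D ≤ c10 n m D := by unfold c10; linarith
  have l9 : c9 n m D ≤ c10 n m D := by unfold c10; linarith
  have r := arithG (W := W) hC hδ0 hδ hτ hM0 hI0 hA0 hq0 hN0 hq ?_ ?_
  · refine r.trans ?_
    have m1 := mul_le_mul_of_nonneg_right l4 hM0
    have m2 := mul_le_mul_of_nonneg_right l4 (mul_nonneg hδ0 hI0)
    linarith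
  · refine p2.trans ?_
    have m1 := mul_le_mul_of_nonneg_right l8 hM0
    have m2 := mul_le_mul_of_nonneg_right l8 (by positivity : 0 ≤ (1 + τ ^ 2) * δ * I)
    have m3 := mul_le_mul_of_nonneg_right l8 hA0
    have m4 := mul_le_mul_of_nonneg_right l8 (mul_nonneg hδ0 hW0)
    linarith
  · refine p3.trans ?_
    have m2 := mul_le_mul_of_nonneg_right l9 (by positivity : 0 ≤ (1 + τ ^ 2) * I)
    linarith

end Vale.Agent.P088.R2.H961
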