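import Vale.Agent.P088.R2.H961.G.Low

/-!
# P088, row TOPG: adjoints, localisation, pointwise bounds
-/

open MeasureTheory Set Filter
open scoped ContDiff Matrix Topology

noncomputable section

namespace Vale.Agent.P088.R2.H961

open Vale.Agent.P088.LR Vale.Agent.P088.HY

variable {n m K : ℕ} {ε D : ℝ} {s : MF n} {e : Co n m}

theorem su_PxG (hs : TS n K ε s) (he : CB D e) (τ : ℝ) {f : Fin m → VV n → ℝ}
    (hf : ∀ p, SU (f p)) (p : Fin m) : SU (PxG s e τ f p) :=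
  (su_Px hs τ (hf p)).add (su_Rx he τ hf p)

theorem tu_PxG (hs : TS n K ε s) (he : CB D e) (τ : ℝ) {f : Fin m → VV n → ℝ}
    (hf : ∀ p, TU (f p)) (p : Fin m) : TU (PxG s e τ f p) :=
  (tu_Px hs τ (hf p)).add (tu_Rx he τ hf p)

theorem adjG (hs : TS n K ε s) (he : CB D e) {D' : ℝ} (he' : CB D' (HY.adj e)) (τ : ℝ)
    {f h : Fin m → VV n → ℝ} (hf : ∀ p, TU (f p)) (hh : ∀ p, TU (h p)) :
    ∑ p, In (fun z => PxG s e τ f p z * h p z) =
      ∑ p, In (fun z => f p z * PxG s (HY.adj e) (-τ) h p z) := by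
  have h1 : ∀ p, In (fun z => PxG s e τ f p z * h p z) =
      In (fun z => Px s τ (f p) z * h p z) + ∑ q, In (fun z => Rt e τ p q (f q) z * h p z) := by
    intro p
    have t2 : ∀ q, TU fun z => Rt e τ p q (f q) z * h p z := fun q =>
      (hh p).mul_left (su_Rt he τ p q (hf q).su)
    rw [← In_sum _ fun q _ => t2 q, ← In_add ((hh p).mul_left (su_Px hs τ (hf p).su))
      (TU.sum _ fun q _ => t2 q)]
    refine In_congr fun z _ => ?_
    rw [PxG_eq, add_mul, ← Finset.sum_mul]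
    rfl
  have h2 : ∀ p, In (fun z => f p z * PxG s (HY.adj e) (-τ) h p z) =
      In (fun z => f p z * Px s (-τ) (h p) z) +
        ∑ q, In (fun z => f p z * Rt (HY.adj e) (-τ) p q (h q) z) := by
    intro p
    have t2 : ∀ q, TU fun z => f p z * Rt (HY.adj e) (-τ) p q (h q) z := fun q =>
      (hf p).mul_right (su_Rt he' (-τ) p q (hh q).su)
    rw [← In_sum _ fun q _ => t2 q, ← In_add ((hf p).mul_right (su_Px hs (-τ) (hh p).su))
      (TU.sum _ fun q _ => t2 q)]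
    refine In_congr fun z _ => ?_
    rw [PxG_eq, mul_add, ← Finset.mul_sum]
    rfl
  simp only [h1, h2]
  rw [Finset.sum_add_distrib, Finset.sum_add_distrib]
  congr 1
  · exact Finset.sum_congr rfl fun p _ => adj hs τ (hf p) (hh p)
  · rw [Finset.sum_comm]
    exact Finset.sum_congr rfl fun q _ => Finset.sum_congr rfl fun p _ =>
      Rt_adj he τ p q (hf q) (hh p)

/-- The commutator of `PxG` and the multiplication by `ψ`. -/
def NnG (s : MF n) (e : Co n m) (τ : ℝ) (ψ : VV n → ℝ) (g : Fin m → VV n → ℝ) (p : Fin m)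
    (z : VV n) : ℝ := Nn s τ ψ (g p) z + ∑ q, Et e ψ p q z * g q z

theorem PxG_mul (hs : TS n K ε s) (e : Co n m) (τ : ℝ) {ψ : VV n → ℝ} {g : Fin m → VV n → ℝ}
    (hψ : SU ψ) (hg : ∀ p, SU (g p)) (p : Fin m) {z : VV n} (hz : z ∈ Un n) :
    PxG s e (-τ) (fun p z => ψ z * g p z) p z =
      ψ z * PxG s e (-τ) g p z + NnG s e τ ψ g p z := by
  rw [PxG_eq, PxG_eq, Px_mul hs τ hψ (hg p) hz]
  unfold Rx NnG
  have : ∀ q, Rt e (-τ) p q (fun z => ψ z * g q z) z =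
      ψ z * Rt e (-τ) p q (g q) z + Et e ψ p q z * g q z := fun q =>
    Rt_mul (-τ) p q hψ (hg q) hz
  simp only [this]
  rw [Finset.sum_add_distrib, ← Finset.mul_sum]
  ring

theorem NnG_mul (s : MF n) (e : Co n m) (τ : ℝ) {ψ : VV n → ℝ} {g : Fin m → VV n → ℝ}
    (hψ : SU ψ) (hg : ∀ p, SU (g p)) (p : Fin m) {z : VV n} (hz : z ∈ Un n) :
    NnG s e τ ψ (fun p z => ψ z * g p z) p z =
      ψ z * NnG s e τ ψ g p z + 2 * Gm s ψ ψ z * g p z := by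
  unfold NnG
  rw [Nn_mul s τ hψ (hg p) hz, mul_add, Finset.mul_sum]
  have : ∀ q, Et e ψ p q z * (ψ z * g q z) = ψ z * (Et e ψ p q z * g q z) := fun q => by ring
  simp only [this]
  ring

/-- The localisation identity. -/
theorem imsG (hs : TS n K ε s) (he : CB D e) {D' : ℝ} (he' : CB D' (HY.adj e)) (τ : ℝ)
    {ψ : VV n → ℝ} {g : Fin m → VV n → ℝ} (hψ : SU ψ) (hg : ∀ p, TU (g p)) :
    ∑ p, In (fun z => PxG s e τ (PxG s (HY.adj e) (-τ) g) p z * (ψ z * (ψ z * g p z))) =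
      ∑ p, In (fun z => PxG s (HY.adj e) (-τ) (fun p z => ψ z * g p z) p z ^ 2 -
        NnG s (HY.adj e) τ ψ g p z ^ 2 +
        2 * Gm s ψ ψ z * g p z * PxG s (HY.adj e) (-τ) g p z) := by
  have tf : ∀ p, TU fun z => ψ z * g p z := fun p => (hg p).mul_left hψ
  have tff : ∀ p, TU fun z => ψ z * (ψ z * g p z) := fun p => (tf p).mul_left hψ
  rw [adjG hs he he' τ (tu_PxG hs he' (-τ) hg) tff]
  refine Finset.sum_congr rfl fun p _ => In_congr fun z hz => ?_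
  have a1 := PxG_mul hs (HY.adj e) τ hψ (g := fun p z => ψ z * g p z) (fun p => (tf p).su) p hz
  rw [a1, NnG_mul s (HY.adj e) τ hψ (fun p => (hg p).su) p hz,
    PxG_mul hs (HY.adj e) τ hψ (fun p => (hg p).su) p hz]
  ring

/-! ## Pointwise bounds -/

variable {δ : ℝ} {ζ : VV n → ℝ}

theorem pt1' (hs : TS n K ε s) (hε1 : ε ≤ 1) (hζ : Zt δ ζ) (hδ0 : 0 ≤ δ) (hδ : δ ≤ 1)
    (G Q N : ℝ) {z : VV n} (hz : z ∈ Un n) :
    9 / 10 * (psi ζ z * Q + N) ^ 2 - 11 / 10 * N ^ 2 -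
      c4 n * (ζ z ^ 8 * G ^ 2) - c4 n * δ * G ^ 2 ≤
    (psi ζ z * Q + N) ^ 2 - N ^ 2 + 2 * Gm s (psi ζ) (psi ζ) z * G * Q := by
  have hw := wu_pos hz
  have hw1 := wu_le hz
  have h0 := hζ.nn z
  have h1 := hζ.le z
  have he := abs_Gm hs hε1 (fun i => abs_Axpsi hζ i hz) (fun i => abs_Axpsi hζ i hz)
  generalize hG : Gm s (psi ζ) (psi ζ) z = e at *
  have hA : psi ζ z = wu z * ζ z ^ 4 := rfl
  set A := psi ζ z * Q with hAd
  set B := 2 * n ^ 2 * (wu z * ζ z ^ 2 * (ζ z + 4 * δ) ^ 2) * |G| with hB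
  have h2 : |2 * e * G * Q| ≤ 2 * |A| * B := by
    have e1 : |2 * e * G * Q| = 2 * |e| * |G| * |Q| := by
      rw [abs_mul, abs_mul, abs_mul, abs_two]
    have e2 : |A| = wu z * ζ z ^ 4 * |Q| := by
      rw [hAd, hA, abs_mul, abs_of_nonneg (by positivity : 0 ≤ wu z * ζ z ^ 4)]
    rw [e1, e2, hB]
    have h3 : 2 * |e| * |G| * |Q| = |e| * (2 * |G| * |Q|) := by ring
    rw [h3]
    refine (mul_le_mul_of_nonneg_right he (by positivity)).trans (le_of_eq ?_)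
    ring
  have h3 : 2 * |A| * B ≤ A ^ 2 / 20 + 20 * B ^ 2 := by
    have := sq_nonneg (|A| - 20 * B)
    have e3 : |A| ^ 2 = A ^ 2 := sq_abs A
    nlinarith
  have h4 : B ^ 2 ≤ 8192 * n ^ 4 * (ζ z ^ 8 * G ^ 2) + 8192 * n ^ 4 * (δ * G ^ 2) := by
    have e4 : B ^ 2 = 4 * n ^ 4 * (wu z ^ 2 * (ζ z ^ 4 * (ζ z + 4 * δ) ^ 4)) * G ^ 2 := by
      rw [hB]
      have : |G| ^ 2 = G ^ 2 := sq_abs _
      linear_combination (2 * n ^ 2 * (wu z * ζ z ^ 2 * (ζ z + 4 * δ) ^ 2)) ^ 2 * this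
    have e5 : ζ z ^ 4 * (ζ z + 4 * δ) ^ 4 ≤ 2048 * (ζ z ^ 8 + δ) := by
      have h5 := mul_le_mul_of_nonneg_left (four_pow (ζ z) (4 * δ)) (by positivity : 0 ≤ ζ z ^ 4)
      have h6 : ζ z ^ 4 ≤ 1 := pow_le_one₀ h0 h1
      have h7 : δ ^ 4 ≤ δ := pow_le_of_le_one hδ0 hδ (by norm_num)
      have h8 : ζ z ^ 4 * δ ^ 4 ≤ 1 * δ := mul_le_mul h6 h7 (by positivity) zero_le_one
      have h9 : 0 ≤ ζ z ^ 8 := by positivity
      nlinarith
    have e6 : wu z ^ 2 * (ζ z ^ 4 * (ζ z + 4 * δ) ^ 4) ≤ 1 * (2048 * (ζ z ^ 8 + δ)) :=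
      mul_le_mul (pow_le_one₀ hw.le hw1) e5 (by positivity) zero_le_one
    have e7 := mul_le_mul_of_nonneg_right (mul_le_mul_of_nonneg_left e6
      (by positivity : 0 ≤ 4 * (n : ℝ) ^ 4)) (sq_nonneg G)
    rw [e4]
    refine e7.trans (le_of_eq ?_)
    ring
  have h5 := (abs_le.1 (h2.trans h3)).1
  have h6 : A ^ 2 ≤ 2 * (A + N) ^ 2 + 2 * N ^ 2 := by nlinarith [sq_nonneg (A + 2 * N)]
  unfold c4
  nlinarith

/-- Factor of the constant in `iv_pt'`. -/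
def c6' (n : ℕ) : ℝ := 4 + 256 * n ^ 4 + 10 * (n + 2) ^ 4 + 16 * n ^ 2

theorem iv_pt' (hn : 3 ≤ n) (hs : TS n K ε s) (hε : ε ≤ 1 / (96 * (n : ℝ) ^ 4)) (hζ : Zt δ ζ)
    (hδ : δ ≤ 1) {τ : ℝ} (hτ : 0 ≤ τ) (g : VV n → ℝ) (Q N : ℝ) {z : VV n}
    (hz : z ∈ Un n) :
    -(g z * Gm s g (om ζ) z) - om ζ z * g z * Q + vp s z.1 * om ζ z * g z ^ 2 +
      τ * (g z ^ 2 * Gm s uu (om ζ) z) + τ ^ 2 * (Fxs s z * om ζ z * g z ^ 2) ≤
    1 / 4 * (om ζ z * ∑ k, Ax k g z ^ 2) + (psi ζ z * Q + N) ^ 2 + N ^ 2 +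
      c6' n * (1 + τ ^ 2) * g z ^ 2 := by
  have hnR : (3 : ℝ) ≤ n := by exact_mod_cast hn
  have hε1 : ε ≤ 1 := hε.trans (eps_le hn)
  have hw := wu_pos hz
  have hw1 := wu_le hz
  have hwu := wu_mul hz
  have h0 := hζ.nn z
  have h1 := hζ.le z
  have hu := uu_ge hz
  have hg2 := sq_nonneg (g z)
  have hom : om ζ z = wu z ^ 2 * ζ z ^ 6 := rfl
  have hps : psi ζ z = wu z * ζ z ^ 4 := rfl
  have hom0 : 0 ≤ om ζ z := by rw [hom]; positivity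
  have hom1 : om ζ z ≤ 1 := by
    rw [hom]
    exact mul_le_one₀ (pow_le_one₀ hw.le hw1) (by positivity) (pow_le_one₀ h0 h1)
  set A := ∑ k, Ax k g z ^ 2 with hA
  have hA0 : 0 ≤ A := Finset.sum_nonneg fun _ _ => sq_nonneg _
  -- first term
  have t1 : -(g z * Gm s g (om ζ) z) ≤ 1 / 4 * (om ζ z * A) + 256 * n ^ 4 * g z ^ 2 := by
    have h2 := abs_Gm hs hε1 (fun i => abs_Ax_le g z i) (fun i => abs_Axom hζ hδ i hz)
    rw [← hA] at h2
    have h3 : |g z * Gm s g (om ζ) z| ≤ |g z| * (2 * n ^ 2 * (√A * (8 * (wu z ^ 2 * ζ z ^ 5)))) := by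
      rw [abs_mul]; exact mul_le_mul_of_nonneg_left h2 (abs_nonneg _)
    have hA2 : √A ^ 2 = A := Real.sq_sqrt hA0
    have hf2 : |g z| ^ 2 = g z ^ 2 := sq_abs _
    have h4 := sq_nonneg (1 / 2 * (wu z * ζ z ^ 3 * √A) - 16 * n ^ 2 * (wu z * ζ z ^ 2 * |g z|))
    have e : (1 / 2 * (wu z * ζ z ^ 3 * √A) - 16 * n ^ 2 * (wu z * ζ z ^ 2 * |g z|)) ^ 2 =
        1 / 4 * (wu z ^ 2 * ζ z ^ 6 * √A ^ 2) + 256 * n ^ 4 * (wu z ^ 2 * ζ z ^ 4 * |g z| ^ 2) -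
        |g z| * (2 * n ^ 2 * (√A * (8 * (wu z ^ 2 * ζ z ^ 5)))) := by ring
    rw [e, hA2, hf2, ← hom] at h4
    have h5 : wu z ^ 2 * ζ z ^ 4 * g z ^ 2 ≤ 1 * g z ^ 2 := by
      apply mul_le_mul_of_nonneg_right _ hg2
      exact mul_le_one₀ (pow_le_one₀ hw.le hw1) (by positivity) (pow_le_one₀ h0 h1)
    have h6 := mul_le_mul_of_nonneg_left h5 (by positivity : 0 ≤ 256 * (n : ℝ) ^ 4)
    have h7 := neg_abs_le (g z * Gm s g (om ζ) z)
    linarith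
  have t2 : -(om ζ z * g z * Q) ≤ (psi ζ z * Q + N) ^ 2 + N ^ 2 + g z ^ 2 := by
    have e1 : om ζ z * g z * Q = (psi ζ z * Q) * (wu z * ζ z ^ 2 * g z) := by
      rw [hom, hps]; ring
    rw [e1]
    have h2 : (wu z * ζ z ^ 2 * g z) ^ 2 ≤ 1 * g z ^ 2 := by
      rw [mul_pow]
      apply mul_le_mul_of_nonneg_right _ hg2
      have h3 : wu z * ζ z ^ 2 ≤ 1 := mul_le_one₀ hw1 (by positivity) (pow_le_one₀ h0 h1)
      exact pow_le_one₀ (by positivity) h3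
    generalize psi ζ z * Q = X at *
    generalize wu z * ζ z ^ 2 * g z = Y at *
    nlinarith [sq_nonneg (X + Y), sq_nonneg (X + 2 * N), sq_nonneg (X + N)]
  have t3 : vp s z.1 * om ζ z * g z ^ 2 ≤ 10 * (n + 2) ^ 4 * g z ^ 2 := by
    apply mul_le_mul_of_nonneg_right _ hg2
    have h2 := bm (abs_vp hs hε1 hz) ((abs_of_nonneg hom0).le.trans hom1)
    rw [mul_one] at h2
    exact (le_abs_self _).trans h2
  have t4 : τ * (g z ^ 2 * Gm s uu (om ζ) z) ≤ 16 * n ^ 2 * τ * g z ^ 2 := by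
    have h2 := abs_Gm hs hε1 (f := uu) (fun i => abs_al hz i) (fun i => abs_Axom hζ hδ i hz)
    have h3 : 2 * n ^ 2 * (uu z * (8 * (wu z ^ 2 * ζ z ^ 5))) ≤ 16 * (n : ℝ) ^ 2 := by
      have h4 : uu z * (8 * (wu z ^ 2 * ζ z ^ 5)) = 8 * (wu z * ζ z ^ 5) := by
        linear_combination 8 * wu z * ζ z ^ 5 * hwu
      have h5 : wu z * ζ z ^ 5 ≤ 1 := mul_le_one₀ hw1 (by positivity) (pow_le_one₀ h0 h1)
      rw [h4]
      have := mul_le_mul_of_nonneg_left h5 (by positivity : 0 ≤ 16 * (n : ℝ) ^ 2)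
      linarith
    have h4 := (le_abs_self _).trans (h2.trans h3)
    have h5 := mul_le_mul_of_nonneg_left h4 (mul_nonneg hτ hg2)
    linarith
  have t5 : τ ^ 2 * (Fxs s z * om ζ z * g z ^ 2) ≤ 2 * τ ^ 2 * g z ^ 2 := by
    have h2 := Gm_self hs (by omega) uu z
    have h3 : ∑ k, Ax k uu z ^ 2 = uu z ^ 2 - 1 := sum_al hz
    rw [h3] at h2
    have h4 : 0 ≤ uu z ^ 2 - 1 := by nlinarith
    have h5 : (n : ℝ) ^ 2 * ε ≤ 1 := by
      rw [le_div_iff₀ (by positivity)] at hε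
      have h9 : (9 : ℝ) ≤ n ^ 2 := by nlinarith
      have hε0 := ts_nonneg hs ⟨0, by omega⟩ ⟨0, by omega⟩
      have h10 : 0 ≤ (n : ℝ) ^ 2 * ε := by positivity
      nlinarith
    have h6 : Fxs s z ≤ 2 * uu z ^ 2 := by
      have h7 := (abs_le.1 h2).2
      have h8 := mul_le_mul_of_nonneg_right h5 h4
      have e : Fxs s z = Gm s uu uu z := rfl
      rw [e]
      linarith
    have h7 : Fxs s z * om ζ z ≤ 2 := by
      have h8 := mul_le_mul_of_nonneg_right h6 hom0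
      have h9 : 2 * uu z ^ 2 * om ζ z = 2 * ζ z ^ 6 := by
        rw [hom]
        have : wu z ^ 2 * uu z ^ 2 = 1 := by rw [← mul_pow, hwu, one_pow]
        linear_combination 2 * ζ z ^ 6 * this
      have h10 : ζ z ^ 6 ≤ 1 := pow_le_one₀ h0 h1
      linarith
    have h8 := mul_le_mul_of_nonneg_right h7 (mul_nonneg (sq_nonneg τ) hg2)
    linarith
  have hτ2 : τ ≤ 1 + τ ^ 2 := by nlinarith [sq_nonneg (τ - 1)]
  have k1 := mul_le_mul_of_nonneg_left hτ2 (by positivity : 0 ≤ 16 * (n : ℝ) ^ 2 * g z ^ 2)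
  have k2 : 0 ≤ τ ^ 2 * g z ^ 2 * n ^ 4 := by positivity
  have k3 : 0 ≤ τ ^ 2 * g z ^ 2 * (n + 2) ^ 4 := by positivity
  have k4 : 0 ≤ τ ^ 2 * g z ^ 2 := by positivity
  unfold c6'
  linear_combination t1 + t2 + t3 + t4 + t5 + k1 + 256 * k2 + 10 * k3 + 2 * k4 + 3 * hg2

end Vale.Agent.P088.R2.H961
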