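import Vale.Agent.P088.R2.H961.Top
import Vale.Agent.P088.R2.H349.J.Spec

/-!
# P088, row TOPG: the lower order terms
-/

open MeasureTheory Set Filter
open scoped ContDiff Matrix Topology

noncomputable section

namespace Vale.Agent.P088.R2.H961

open Vale.Agent.P088.LR Vale.Agent.P088.HY

variable {n m K : ℕ} {ε D : ℝ} {s : MF n} {e : Co n m}

/-- Smooth bounded coefficients. -/
structure CB (D : ℝ) (e : Co n m) : Prop where
  sb : ∀ l p q, ContDiff ℝ ∞ (fun x => e.b l x p q)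
  sc : ∀ p q, ContDiff ℝ ∞ (fun x => e.c x p q)
  bb : ∀ l x p q, |e.b l x p q| ≤ D
  bc : ∀ x p q, |e.c x p q| ≤ D

theorem cl_abs {f : V n → ℝ} (h : Cl K ε f) (x : V n) : |f x| ≤ ε := by
  have := h 0 (Nat.zero_le _) x
  rwa [norm_iteratedFDeriv_zero, Real.norm_eq_abs] at this

theorem cl_pd {f : V n → ℝ} (h : Cl K ε f) (hK : 1 ≤ K) (i : Fin n) (x : V n) :
    |pd i f x| ≤ ε := by
  have h1 := h 1 hK x
  rw [norm_iteratedFDeriv_one] at h1
  unfold pd
  rw [← Real.norm_eq_abs]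
  refine (ContinuousLinearMap.le_opNorm _ _).trans ?_
  have : ‖(Pi.single i 1 : V n)‖ = 1 := by
    rw [Pi.norm_single]; simp
  rw [this, mul_one]
  exact h1

theorem contDiff_pd {f : V n → ℝ} (h : ContDiff ℝ ∞ f) (i : Fin n) : ContDiff ℝ ∞ (pd i f) := by
  have h1 : ContDiff ℝ ∞ (fderiv ℝ f) := h.fderiv_right (by norm_num)
  exact h1.clm_apply contDiff_const

theorem cb_of {M : ℝ} (hM : 0 ≤ M) (h : CoOk K ε M e) (hε : ε ≤ 1) : CB (M + n + 1) e where
  sb := h.sb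
  sc := h.sc
  bb l x p q := by
    have hn : (0 : ℝ) ≤ n := Nat.cast_nonneg n
    have := cl_abs (h.bb l p q) x
    linarith
  bc x p q := by
    have hn : (0 : ℝ) ≤ n := Nat.cast_nonneg n
    have := cl_abs (h.bc p q) x
    linarith

theorem cb_adj {M : ℝ} (hM : 0 ≤ M) (h : CoOk K ε M e) (hK : 1 ≤ K) (hε : ε ≤ 1) :
    CB (M + n + 1) (HY.adj e) where
  sb l p q := by
    have : (fun x => (HY.adj e).b l x p q) = fun x => -(e.b l x q p) := rfl
    rw [this]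
    exact (h.sb l q p).neg
  sc p q := by
    have : (fun x => (HY.adj e).c x p q) =
        fun x => e.c x q p - ∑ l, pd l (fun y => e.b l y q p) x := rfl
    rw [this]
    exact (h.sc q p).sub (ContDiff.sum fun l _ => contDiff_pd (h.sb l q p) l)
  bb l x p q := by
    have hn : (0 : ℝ) ≤ n := Nat.cast_nonneg n
    have h1 : (HY.adj e).b l x p q = -(e.b l x q p) := rfl
    have := cl_abs (h.bb l q p) x
    rw [h1, abs_neg]
    linarith
  bc x p q := by
    have hn : (0 : ℝ) ≤ n := Nat.cast_nonneg n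
    have h1 : (HY.adj e).c x p q = e.c x q p - ∑ l, pd l (fun y => e.b l y q p) x := rfl
    have h2 := cl_abs (h.bc q p) x
    have h3 : |∑ l, pd l (fun y => e.b l y q p) x| ≤ n * 1 :=
      abs_sum_le fun l => (cl_pd (h.bb l q p) hK l x).trans hε
    rw [h1]
    have := bs h2 h3
    linarith

/-- One term of the lower order part. -/
def Rt (e : Co n m) (τ : ℝ) (p q : Fin m) (f : VV n → ℝ) (z : VV n) : ℝ :=
  ∑ l, rr z.1 * e.b l z.1 p q * (Ax l f z + τ * al l z * f z + ga n * z.1 l * f z) +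
    rr z.1 ^ 2 * e.c z.1 p q * f z

/-- The lower order part. -/
def Rx (e : Co n m) (τ : ℝ) (f : Fin m → VV n → ℝ) (p : Fin m) (z : VV n) : ℝ :=
  ∑ q, Rt e τ p q (f q) z

theorem PxG_eq (s : MF n) (e : Co n m) (τ : ℝ) (f : Fin m → VV n → ℝ) (p : Fin m) (z : VV n) :
    PxG s e τ f p z = Px s τ (f p) z + Rx e τ f p z := rfl

/-- The commutator of `Rt` with the multiplication by `ψ`. -/
def Et (e : Co n m) (ψ : VV n → ℝ) (p q : Fin m) (z : VV n) : ℝ :=
  ∑ l, rr z.1 * e.b l z.1 p q * Ax l ψ z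

theorem su_b (he : CB D e) (l : Fin n) (p q : Fin m) : SU fun z : VV n => e.b l z.1 p q :=
  ((he.sb l p q).comp contDiff_fst).contDiffOn

theorem su_c (he : CB D e) (p q : Fin m) : SU fun z : VV n => e.c z.1 p q :=
  ((he.sc p q).comp contDiff_fst).contDiffOn

theorem su_Rt (he : CB D e) (τ : ℝ) (p q : Fin m) {f : VV n → ℝ} (hf : SU f) :
    SU (Rt e τ p q f) := by
  have h1 : SU fun z => ∑ l, rr z.1 * e.b l z.1 p q *
      (Ax l f z + τ * al l z * f z + ga n * z.1 l * f z) := SU.sum _ fun l _ =>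
    (su_rx.mul (su_b he l p q)).mul (((hf.ax l).add ((contDiffOn_const.mul (su_al l)).mul hf)).add
      ((contDiffOn_const.mul (su_x l)).mul hf))
  exact h1.add (((su_rx.pow 2).mul (su_c he p q)).mul hf)

theorem tu_Rt (he : CB D e) (τ : ℝ) (p q : Fin m) {f : VV n → ℝ} (hf : TU f) :
    TU (Rt e τ p q f) := by
  have h1 : TU fun z => ∑ l, rr z.1 * e.b l z.1 p q *
      (Ax l f z + τ * al l z * f z + ga n * z.1 l * f z) := TU.sum _ fun l _ =>
    TU.mul_left (((hf.ax l).add (hf.mul_left (contDiffOn_const.mul (su_al l)))).add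
      (hf.mul_left (contDiffOn_const.mul (su_x l)))) (su_rx.mul (su_b he l p q))
  exact h1.add (hf.mul_left ((su_rx.pow 2).mul (su_c he p q)))

theorem su_Rx (he : CB D e) (τ : ℝ) {f : Fin m → VV n → ℝ} (hf : ∀ p, SU (f p)) (p : Fin m) :
    SU (Rx e τ f p) := SU.sum _ fun q _ => su_Rt he τ p q (hf q)

theorem tu_Rx (he : CB D e) (τ : ℝ) {f : Fin m → VV n → ℝ} (hf : ∀ p, TU (f p)) (p : Fin m) :
    TU (Rx e τ f p) := TU.sum _ fun q _ => tu_Rt he τ p q (hf q)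

theorem su_Et (he : CB D e) {ψ : VV n → ℝ} (hψ : SU ψ) (p q : Fin m) : SU (Et e ψ p q) :=
  SU.sum _ fun l _ => (su_rx.mul (su_b he l p q)).mul (hψ.ax l)

theorem Rt_mul (τ : ℝ) (p q : Fin m) {ψ f : VV n → ℝ} (hψ : SU ψ) (hf : SU f)
    {z : VV n} (hz : z ∈ Un n) :
    Rt e τ p q (fun z => ψ z * f z) z = ψ z * Rt e τ p q f z + Et e ψ p q z * f z := by
  unfold Rt Et
  have : ∀ l, rr z.1 * e.b l z.1 p q * (Ax l (fun z => ψ z * f z) z + τ * al l z * (ψ z * f z) +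
      ga n * z.1 l * (ψ z * f z)) = ψ z * (rr z.1 * e.b l z.1 p q *
        (Ax l f z + τ * al l z * f z + ga n * z.1 l * f z)) +
        rr z.1 * e.b l z.1 p q * Ax l ψ z * f z := by
    intro l
    rw [Ax_mul hψ hf l hz]; ring
  simp only [this]
  rw [Finset.sum_add_distrib, ← Finset.mul_sum, ← Finset.sum_mul]
  ring

theorem Rt_adj (he : CB D e) (τ : ℝ) (p q : Fin m) {f h : VV n → ℝ} (hf : TU f)
    (hh : TU h) :
    In (fun z => Rt e τ p q f z * h z) = In (fun z => f z * Rt (HY.adj e) (-τ) q p h z) := by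
  have tfh : TU fun z => f z * h z := hf.mul_right hh.su
  have sE : ∀ l, SU fun z : VV n => rr z.1 * e.b l z.1 p q := fun l => su_rx.mul (su_b he l p q)
  have tE : ∀ l, TU fun z : VV n => rr z.1 * e.b l z.1 p q * (f z * h z) := fun l =>
    tfh.mul_left (sE l)
  have tS : ∀ l, TU fun z : VV n => Ax l (fun z : VV n => rr z.1 * e.b l z.1 p q * (f z * h z)) z +
      (n - 1) * z.1 l * (rr z.1 * e.b l z.1 p q * (f z * h z)) := fun l =>
    ((tE l).ax l).add ((tE l).mul_left (contDiffOn_const.mul (su_x l)))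
  have h0 : In (fun z => ∑ l, (Ax l (fun z : VV n => rr z.1 * e.b l z.1 p q * (f z * h z)) z +
      (n - 1) * z.1 l * (rr z.1 * e.b l z.1 p q * (f z * h z)))) = 0 := by
    rw [In_sum _ fun l _ => tS l]
    exact Finset.sum_eq_zero fun l _ => ibp (tE l) l
  have t1 : TU fun z => Rt e τ p q f z * h z := hh.mul_left (su_Rt he τ p q hf.su)
  have e1 : ∀ z ∈ Un n, ∑ l, (Ax l (fun z : VV n => rr z.1 * e.b l z.1 p q * (f z * h z)) z +
      (n - 1) * z.1 l * (rr z.1 * e.b l z.1 p q * (f z * h z))) =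
      Rt e τ p q f z * h z - f z * Rt (HY.adj e) (-τ) q p h z := by
    intro z hz
    have a1 : ∀ l, Ax l (fun z : VV n => rr z.1 * e.b l z.1 p q * (f z * h z)) z +
      (n - 1) * z.1 l * (rr z.1 * e.b l z.1 p q * (f z * h z)) =
        (rr z.1 * e.b l z.1 p q * (Ax l f z + τ * al l z * f z + ga n * z.1 l * f z)) * h z +
        (rr z.1 * e.b l z.1 p q * (Ax l h z - τ * al l z * h z + ga n * z.1 l * h z)) * f z +
        rr z.1 ^ 2 * pd l (fun x => e.b l x p q) z.1 * (f z * h z) := by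
      intro l
      have hd : DifferentiableAt ℝ (fun x => e.b l x p q) z.1 :=
        (he.sb l p q).differentiable (by simp) |>.differentiableAt
      rw [Ax_mul (sE l) tfh.su l hz, Ax_mul su_rx (su_b he l p q) l hz, Ax_rx l hz,
        Ax_fst (φ := fun x => e.b l x p q) l hd, Ax_mul hf.su hh.su l hz]
      unfold ga
      ring
    simp only [a1]
    have a2 : Rt (HY.adj e) (-τ) q p h z =
        -(∑ l, rr z.1 * e.b l z.1 p q * (Ax l h z - τ * al l z * h z + ga n * z.1 l * h z)) +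
        rr z.1 ^ 2 * (e.c z.1 p q - ∑ l, pd l (fun y => e.b l y p q) z.1) * h z := by
      have b1 : ∀ l, (HY.adj e).b l z.1 q p = -(e.b l z.1 p q) := fun l => rfl
      have b2 : (HY.adj e).c z.1 q p = e.c z.1 p q - ∑ l, pd l (fun y => e.b l y p q) z.1 := rfl
      unfold Rt
      rw [b2, ← Finset.sum_neg_distrib]
      congr 1
      refine Finset.sum_congr rfl fun l _ => ?_
      rw [b1]; ring
    rw [a2, Finset.sum_add_distrib, Finset.sum_add_distrib, ← Finset.sum_mul, ← Finset.sum_mul,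
      ← Finset.sum_mul, ← Finset.mul_sum]
    unfold Rt
    ring
  rw [In_congr e1] at h0
  have t3 : TU fun z => f z * Rt (HY.adj e) (-τ) q p h z := by
    have ts : TU fun z => Rt e τ p q f z * h z - ∑ l, (Ax l (fun z : VV n =>
      rr z.1 * e.b l z.1 p q * (f z * h z)) z +
      (n - 1) * z.1 l * (rr z.1 * e.b l z.1 p q * (f z * h z))) :=
      t1.sub (TU.sum _ fun l _ => tS l)
    refine tf_of hf.cpt hf.2.2 ?_ ?_
    · refine ts.su.congr fun z hz => ?_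
      have := e1 z hz
      linarith
    · intro z hz
      rw [TU.zero hz, zero_mul]
  rw [In_sub t1 t3] at h0
  linarith

/-! ## Bounds -/

/-- A constant. -/
def cR (n m : ℕ) (D : ℝ) : ℝ := 6 * m ^ 2 * n * (n ^ 3 + 1) * D ^ 2

theorem cR_nonneg (n m : ℕ) (D : ℝ) : 0 ≤ cR n m D := by unfold cR; positivity

theorem abs_rx {z : VV n} (hz : z ∈ Un n) : |rr z.1| ≤ 1 := by
  rw [abs_of_pos (rx_pos hz)]; linarith [rr_le z.1]

theorem Rt_sq (hn : 3 ≤ n) (he : CB D e) (τ : ℝ) (p q : Fin m) (f : VV n → ℝ)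
    {z : VV n} (hz : z ∈ Un n) :
    Rt e τ p q f z ^ 2 ≤ 6 * n * (n ^ 3 + 1) * D ^ 2 *
      (∑ k, Ax k f z ^ 2 + τ ^ 2 * (uu z ^ 2 - 1) * f z ^ 2 + f z ^ 2) := by
  have hnR : (3 : ℝ) ≤ n := by exact_mod_cast hn
  have hrx := abs_rx hz
  have hga : ga n ^ 2 ≤ n ^ 2 := by
    unfold ga
    nlinarith
  set Y : Fin n → ℝ := fun l => rr z.1 * e.b l z.1 p q *
    (Ax l f z + τ * al l z * f z + ga n * z.1 l * f z) with hY
  have hYl : ∀ l, Y l ^ 2 ≤ 3 * D ^ 2 * (Ax l f z ^ 2 + τ ^ 2 * al l z ^ 2 * f z ^ 2 +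
      n ^ 2 * f z ^ 2) := by
    intro l
    have h1 : (rr z.1 * e.b l z.1 p q) ^ 2 ≤ D ^ 2 := by
      have := bm hrx (he.bb l z.1 p q)
      rw [one_mul] at this
      rw [← sq_abs (rr z.1 * e.b l z.1 p q)]
      exact pow_le_pow_left₀ (abs_nonneg _) this 2
    have h2 : (Ax l f z + τ * al l z * f z + ga n * z.1 l * f z) ^ 2 ≤
        3 * (Ax l f z ^ 2 + τ ^ 2 * al l z ^ 2 * f z ^ 2 + n ^ 2 * f z ^ 2) := by
      have h3 : (ga n * z.1 l) ^ 2 ≤ n ^ 2 := by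
        have hx : z.1 l ^ 2 ≤ 1 := (sq_le_one_iff_abs_le_one _).2 (abs_x hz l)
        rw [mul_pow]
        nlinarith [sq_nonneg (ga n), sq_nonneg (z.1 l)]
      have h4 := mul_le_mul_of_nonneg_right h3 (sq_nonneg (f z))
      nlinarith [sq_nonneg (Ax l f z - τ * al l z * f z), sq_nonneg (Ax l f z - ga n * z.1 l * f z),
        sq_nonneg (τ * al l z * f z - ga n * z.1 l * f z)]
    calc Y l ^ 2 = (rr z.1 * e.b l z.1 p q) ^ 2 *
          (Ax l f z + τ * al l z * f z + ga n * z.1 l * f z) ^ 2 := by rw [hY]; ring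
      _ ≤ D ^ 2 * (3 * (Ax l f z ^ 2 + τ ^ 2 * al l z ^ 2 * f z ^ 2 + n ^ 2 * f z ^ 2)) :=
          mul_le_mul h1 h2 (sq_nonneg _) (sq_nonneg _)
      _ = _ := by ring
  have hS : (∑ l, Y l) ^ 2 ≤ 3 * n * D ^ 2 * (∑ k, Ax k f z ^ 2 +
      τ ^ 2 * (uu z ^ 2 - 1) * f z ^ 2 + n ^ 3 * f z ^ 2) := by
    have h1 := sq_sum_le_card_mul_sum_sq (s := (Finset.univ : Finset (Fin n))) (f := Y)
    rw [Finset.card_univ, Fintype.card_fin] at h1
    refine h1.trans ?_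
    have h2 := Finset.sum_le_sum fun l (_ : l ∈ Finset.univ) => hYl l
    have h3 : ∑ l, 3 * D ^ 2 * (Ax l f z ^ 2 + τ ^ 2 * al l z ^ 2 * f z ^ 2 + n ^ 2 * f z ^ 2) =
        3 * D ^ 2 * (∑ k, Ax k f z ^ 2 + τ ^ 2 * (uu z ^ 2 - 1) * f z ^ 2 + n ^ 3 * f z ^ 2) := by
      rw [← Finset.mul_sum, Finset.sum_add_distrib, Finset.sum_add_distrib, ← Finset.sum_mul,
        ← Finset.mul_sum, sum_al hz]
      simp only [Finset.sum_const, Finset.card_univ, Fintype.card_fin, nsmul_eq_mul]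
      ring
    rw [h3] at h2
    have h4 := mul_le_mul_of_nonneg_left h2 (by positivity : (0 : ℝ) ≤ n)
    linarith
  have hT : (rr z.1 ^ 2 * e.c z.1 p q * f z) ^ 2 ≤ D ^ 2 * f z ^ 2 := by
    have h1 : (rr z.1 ^ 2 * e.c z.1 p q) ^ 2 ≤ D ^ 2 := by
      have h0 : |rr z.1 ^ 2| ≤ 1 := by
        rw [abs_pow]; exact pow_le_one₀ (abs_nonneg _) hrx
      have := bm h0 (he.bc z.1 p q)
      rw [one_mul] at this
      rw [← sq_abs (rr z.1 ^ 2 * e.c z.1 p q)]
      exact pow_le_pow_left₀ (abs_nonneg _) this 2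
    rw [mul_pow _ (f z)]
    exact mul_le_mul_of_nonneg_right h1 (sq_nonneg _)
  have hX : Rt e τ p q f z = ∑ l, Y l + rr z.1 ^ 2 * e.c z.1 p q * f z := rfl
  rw [hX]
  generalize ∑ l, Y l = S at *
  generalize rr z.1 ^ 2 * e.c z.1 p q * f z = T at *
  have hu : 0 ≤ uu z ^ 2 - 1 := by nlinarith [uu_ge hz]
  have hA : 0 ≤ ∑ k, Ax k f z ^ 2 := Finset.sum_nonneg fun _ _ => sq_nonneg _
  generalize ∑ k, Ax k f z ^ 2 = A at *
  have hB : 0 ≤ τ ^ 2 * (uu z ^ 2 - 1) * f z ^ 2 := by positivity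
  generalize τ ^ 2 * (uu z ^ 2 - 1) * f z ^ 2 = B at *
  have hF := sq_nonneg (f z)
  generalize f z ^ 2 = F at *
  have h1 : (S + T) ^ 2 ≤ 2 * S ^ 2 + 2 * T ^ 2 := by nlinarith [sq_nonneg (S - T)]
  have p1 : 0 ≤ (n : ℝ) * n ^ 3 * D ^ 2 * A := by positivity
  have p2 : 0 ≤ (n : ℝ) * n ^ 3 * D ^ 2 * B := by positivity
  have p3 : 0 ≤ ((n : ℝ) - 3) * D ^ 2 * F := by
    have : 0 ≤ (n : ℝ) - 3 := by linarith
    positivity
  have p4 : 0 ≤ D ^ 2 * F := by positivity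
  nlinarith

theorem Rx_sq (hn : 3 ≤ n) (he : CB D e) (τ : ℝ) (f : Fin m → VV n → ℝ)
    {z : VV n} (hz : z ∈ Un n) :
    ∑ p, Rx e τ f p z ^ 2 ≤ cR n m D * ∑ q, (∑ k, Ax k (f q) z ^ 2 +
      τ ^ 2 * (uu z ^ 2 - 1) * f q z ^ 2 + f q z ^ 2) := by
  have h1 : ∀ p, Rx e τ f p z ^ 2 ≤ m * (6 * n * (n ^ 3 + 1) * D ^ 2 *
      ∑ q, (∑ k, Ax k (f q) z ^ 2 + τ ^ 2 * (uu z ^ 2 - 1) * f q z ^ 2 + f q z ^ 2)) := by
    intro p
    have h2 := sq_sum_le_card_mul_sum_sq (s := (Finset.univ : Finset (Fin m)))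
      (f := fun q => Rt e τ p q (f q) z)
    rw [Finset.card_univ, Fintype.card_fin] at h2
    refine h2.trans ?_
    apply mul_le_mul_of_nonneg_left _ (Nat.cast_nonneg m)
    rw [Finset.mul_sum]
    exact Finset.sum_le_sum fun q _ => Rt_sq hn he τ p q (f q) hz
  refine (Finset.sum_le_sum fun p _ => h1 p).trans (le_of_eq ?_)
  simp only [Finset.sum_const, Finset.card_univ, Fintype.card_fin, nsmul_eq_mul]
  unfold cR
  ring

theorem Ex_sq (he : CB D e) {ψ : VV n → ℝ} {B : ℝ} (f : Fin m → VV n → ℝ)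
    {z : VV n} (hz : z ∈ Un n) (hB : ∀ i, |Ax i ψ z| ≤ B) :
    ∑ p, (∑ q, Et e ψ p q z * f q z) ^ 2 ≤ m ^ 2 * n ^ 2 * D ^ 2 * B ^ 2 * ∑ q, f q z ^ 2 := by
  have h1 : ∀ p q, Et e ψ p q z ^ 2 ≤ n ^ 2 * D ^ 2 * B ^ 2 := by
    intro p q
    have h2 : |Et e ψ p q z| ≤ n * (1 * D * B) :=
      abs_sum_le fun l => bm (bm (abs_rx hz) (he.bb l z.1 p q)) (hB l)
    rw [← sq_abs (Et e ψ p q z)]
    refine (pow_le_pow_left₀ (abs_nonneg _) h2 2).trans (le_of_eq ?_)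
    ring
  have h3 : ∀ p, (∑ q, Et e ψ p q z * f q z) ^ 2 ≤ m * (n ^ 2 * D ^ 2 * B ^ 2 * ∑ q, f q z ^ 2) := by
    intro p
    have h2 := sq_sum_le_card_mul_sum_sq (s := (Finset.univ : Finset (Fin m)))
      (f := fun q => Et e ψ p q z * f q z)
    rw [Finset.card_univ, Fintype.card_fin] at h2
    refine h2.trans ?_
    apply mul_le_mul_of_nonneg_left _ (Nat.cast_nonneg m)
    rw [Finset.mul_sum]
    refine Finset.sum_le_sum fun q _ => ?_
    rw [mul_pow]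
    exact mul_le_mul_of_nonneg_right (h1 p q) (sq_nonneg _)
  refine (Finset.sum_le_sum fun p _ => h3 p).trans (le_of_eq ?_)
  simp only [Finset.sum_const, Finset.card_univ, Fintype.card_fin, nsmul_eq_mul]
  ring

end Vale.Agent.P088.R2.H961
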