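import Vale.Agent.P088.R2.H961.G.Fac
import Vale.Agent.P088.R2.H205.Cut

/-!
# P088, row TOPG
-/

open MeasureTheory Set Filter
open scoped ContDiff Matrix Topology

noncomputable section

namespace Vale.Agent.P088.R2.H961

open Vale.Agent.P088.LR Vale.Agent.P088.HY

variable {n m K : ℕ} {ε D δ τ : ℝ} {s : MF n} {e : Co n m} {ζ : VV n → ℝ}

/-! ## The swap of the factors -/

theorem PyG_sw (s : MF n) (e : Co n m) (τ : ℝ) (f : Fin m → VV n → ℝ) (p : Fin m) (z : VV n) :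
    PyG s e τ f p z = PxG s e τ (fun p => sw (f p)) p z.swap := by
  unfold PyG PxG
  rw [Py_sw]
  simp only [be_sw, By_sw, Prod.fst_swap]
  simp [sw]

theorem PyG_sw' (s : MF n) (e : Co n m) (τ : ℝ) (f : Fin m → VV n → ℝ) (p : Fin m) :
    sw (PyG s e τ f p) = PxG s e τ (fun p => sw (f p)) p := by
  funext z
  have := PyG_sw s e τ f p z.swap
  rw [Prod.swap_swap] at this
  exact this

theorem PyG_eq (s : MF n) (e : Co n m) (τ : ℝ) (f : Fin m → VV n → ℝ) (p : Fin m) :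
    PyG s e τ f p = sw (PxG s e τ (fun p => sw (f p)) p) := by
  rw [← PyG_sw', sw_sw]

/-- The localised inequality in the second factor. -/
theorem facyG (hn : 3 ≤ n) (hs : TS n K ε s) (hK : 1 ≤ K) (hε : ε ≤ 1 / (96 * (n : ℝ) ^ 4))
    (he : CB D e) (he' : CB D (HY.adj e)) (hζ : Zt δ ζ) (hζs : sw ζ = ζ) (hδ0 : 0 ≤ δ)
    (hδ : δ ≤ 1 / (80 * c10 n m D)) (hτ : 5 * c10 n m D ≤ τ) {g : Fin m → VV n → ℝ}
    (hg : ∀ p, TU (g p)) :
    τ ^ 2 * ∑ p, In (fun z => ζ z ^ 8 * g p z ^ 2) -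
        4 * c10 n m D ^ 2 * (1 + τ ^ 2) * δ * ∑ p, In (fun z => g p z ^ 2) ≤
      ∑ p, In (fun z => PyG s e τ (PyG s (HY.adj e) (-τ) g) p z *
        (psi ζ z * (psi ζ z * g p z))) := by
  have h := facG hn hs hK hε he he' hζ hδ0 hδ hτ (g := fun p => sw (g p)) fun p => (hg p).sw
  have e1 : ∀ p, (fun z => PxG s e τ (PxG s (HY.adj e) (-τ) fun p => sw (g p)) p z *
        (psi ζ z * (psi ζ z * sw (g p) z))) =
      sw (fun z => PyG s e τ (PyG s (HY.adj e) (-τ) g) p z * (psi ζ z * (psi ζ z * g p z))) := by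
    intro p
    funext z
    have h1 := congrFun (psi_sw hζs) z
    unfold sw at h1
    change _ = PyG s e τ (PyG s (HY.adj e) (-τ) g) p z.swap *
      (psi ζ z.swap * (psi ζ z.swap * g p z.swap))
    rw [h1, PyG_sw, Prod.swap_swap]
    have h2 : (fun p => sw (PyG s (HY.adj e) (-τ) g p)) = PxG s (HY.adj e) (-τ) fun p => sw (g p) :=
      funext fun p => PyG_sw' s (HY.adj e) (-τ) g p
    rw [h2]
    rfl
  have e2 : ∀ p, (fun z => ζ z ^ 8 * sw (g p) z ^ 2) = sw (fun z => ζ z ^ 8 * g p z ^ 2) := by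
    intro p
    funext z
    have h1 := congrFun hζs z
    unfold sw at h1
    change ζ z ^ 8 * g p z.swap ^ 2 = ζ z.swap ^ 8 * g p z.swap ^ 2
    rw [h1]
  have e3 : ∀ p, (fun z => sw (g p) z ^ 2) = sw (fun z => g p z ^ 2) := fun p => rfl
  simp only [e1, e2, e3, In_sw] at h
  exact h

/-! ## Locality -/

theorem PxG_congr_nhds {f g : Fin m → VV n → ℝ} {z : VV n} (h : ∀ p, f p =ᶠ[𝓝 z] g p) (s : MF n)
    (e : Co n m) (τ : ℝ) (p : Fin m) : PxG s e τ f p =ᶠ[𝓝 z] PxG s e τ g p := by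
  have h1 : ∀ᶠ w in 𝓝 z, ∀ q, f q =ᶠ[𝓝 w] g q := by
    rw [eventually_all]
    exact fun q => (h q).eventually_nhds
  filter_upwards [h1, Px_congr_nhds (h p) s τ] with w hw hp
  have h4 : ∀ q j, Ax j (f q) w = Ax j (g q) w := fun q j => Ax_congr_nhds (hw q) j
  have h5 : ∀ q, f q w = g q w := fun q => (hw q).eq_of_nhds
  simp only [PxG, hp, h4, h5]

theorem PyG_congr_nhds {f g : Fin m → VV n → ℝ} {z : VV n} (h : ∀ p, f p =ᶠ[𝓝 z] g p) (s : MF n)
    (e : Co n m) (τ : ℝ) (p : Fin m) : PyG s e τ f p =ᶠ[𝓝 z] PyG s e τ g p := by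
  have h1 := sw_nhds (PxG_congr_nhds (fun p => sw_nhds (h p)) s e τ p)
  rw [Prod.swap_swap, ← PyG_eq, ← PyG_eq] at h1
  exact h1

theorem su_PyG (hs : TS n K ε s) (he : CB D e) (τ : ℝ) {f : Fin m → VV n → ℝ}
    (hf : ∀ p, SU (f p)) (p : Fin m) : SU (PyG s e τ f p) := by
  rw [PyG_eq]
  exact SU.sw (su_PxG hs he τ (fun p => (hf p).sw) p)

/-- The basic inequality for solutions. -/
theorem sol_leG (hn : 3 ≤ n) (hcut : Cut n) {s₁ s₂ : MF n} {e₁ e₂ : Co n m} (hK : 1 ≤ K)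
    (hε : ε ≤ 1 / (96 * (n : ℝ) ^ 4)) (h₁ : TS n K ε s₁) (h₂ : TS n K ε s₂)
    (he₁ : CB D e₁) (he₁' : CB D (HY.adj e₁)) (he₂ : CB D e₂) (he₂' : CB D (HY.adj e₂))
    (hτ : 5 * c10 n m D ≤ τ) {g : Fin m → VV n → ℝ} (hg : ∀ p, SU (g p))
    (hint : ∀ p, IntegrableOn (fun z => th z * g p z ^ 2) (Un n))
    (heq : ∀ z ∈ Un n, ∀ p, PxG s₁ e₁ τ (PxG s₁ (HY.adj e₁) (-τ) g) p z +
      PyG s₂ e₂ τ (PyG s₂ (HY.adj e₂) (-τ) g) p z = 0)
    (hδ0 : 0 < δ) (hδ : δ ≤ 1 / (80 * c10 n m D)) {ρ : ℝ} (hρ : 0 < ρ) :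
    τ ^ 2 * ∑ p, ∫ z in {z : VV n | z ∈ Un n ∧ ρ < rr z.1 ∧ ρ < rr z.2}, th z * g p z ^ 2 ≤
      4 * c10 n m D ^ 2 * (1 + τ ^ 2) * δ * ∑ p, ∫ z in Un n, th z * g p z ^ 2 := by
  obtain ⟨ζ, hζ1, hζ2, hζ3, hζ4, hζ5, hζ6⟩ := hcut δ ρ hδ0 hρ
  have hZ : Zt δ ζ := ⟨hζ1, fun z => (hζ2 z).1, fun z => (hζ2 z).2, hζ4, hζ5⟩
  have hZs : sw ζ = ζ := funext hζ3
  have c1 : Continuous fun z : VV n => rr z.1 := by
    unfold rr
    exact ((contDiff_const.sub (cont_sq.comp contDiff_fst)).div_const 2).continuous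
  have c2 : Continuous fun z : VV n => rr z.2 := by
    unfold rr
    exact ((contDiff_const.sub (cont_sq.comp contDiff_snd)).div_const 2).continuous
  -- lower bound of rr on the support
  obtain ⟨r, hr0, hr⟩ : ∃ r : ℝ, 0 < r ∧ ∀ z ∈ tsupport ζ, r ≤ rr z.1 ∧ r ≤ rr z.2 := by
    have hK : IsCompact (tsupport ζ) := hζ1.2.1
    have hKU : tsupport ζ ⊆ Un n := hζ1.2.2
    rcases (tsupport ζ).eq_empty_or_nonempty with he | hne
    · exact ⟨1, one_pos, fun z hz => absurd hz (by rw [he]; exact notMem_empty z)⟩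
    · have hcont : ContinuousOn (fun z : VV n => min (rr z.1) (rr z.2)) (tsupport ζ) :=
        (c1.min c2).continuousOn
      obtain ⟨z₁, hz₁, hmin⟩ := hK.exists_isMinOn hne hcont
      refine ⟨min (rr z₁.1) (rr z₁.2), lt_min (rx_pos (hKU hz₁)) (ry_pos (hKU hz₁)), ?_⟩
      intro z hz
      have := hmin hz
      change min (rr z₁.1) (rr z₁.2) ≤ min (rr z.1) (rr z.2) at this
      exact ⟨this.trans (min_le_left _ _), this.trans (min_le_right _ _)⟩
  obtain ⟨η, hη1, hη2, -, -, -, hη6⟩ := hcut 1 (r / 2) one_pos (by positivity)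
  set g' : Fin m → VV n → ℝ := fun p z => η z * g p z with hg'
  have tg' : ∀ p, TU (g' p) := fun p => TU.mul_right hη1 (hg p)
  have hloc : ∀ z ∈ tsupport ζ, ∀ p, g' p =ᶠ[𝓝 z] g p := by
    intro z hz p
    have hzU : z ∈ Un n := hζ1.2.2 hz
    have hO : ∀ᶠ w : VV n in 𝓝 z, w ∈ Un n ∧ r / 2 < rr w.1 ∧ r / 2 < rr w.2 := by
      have h1 : r / 2 < rr z.1 := by linarith [(hr z hz).1]
      have h2 : r / 2 < rr z.2 := by linarith [(hr z hz).2]
      filter_upwards [mem_nhds_Un hzU, c1.continuousAt.eventually (lt_mem_nhds h1),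
        c2.continuousAt.eventually (lt_mem_nhds h2)] with w a b c using ⟨a, b, c⟩
    filter_upwards [hO] with w hw
    simp only [hg']
    rw [hη6 w hw.1 hw.2.1.le hw.2.2.le, one_mul]
  have hψ0 : ∀ z, z ∉ tsupport ζ → psi ζ z = 0 := by
    intro z hz
    unfold psi
    rw [image_eq_zero_of_notMem_tsupport hz]; simp
  have hx := facG hn h₁ hK hε he₁ he₁' hZ hδ0.le hδ hτ tg'
  have hy := facyG hn h₂ hK hε he₂ he₂' hZ hZs hδ0.le hδ hτ tg'
  have sp := su_psi hZ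
  have sg' : ∀ p, SU (g' p) := fun p => (tg' p).su
  have hsum : ∑ p, In (fun z => PxG s₁ e₁ τ (PxG s₁ (HY.adj e₁) (-τ) g') p z *
        (psi ζ z * (psi ζ z * g' p z))) +
      ∑ p, In (fun z => PyG s₂ e₂ τ (PyG s₂ (HY.adj e₂) (-τ) g') p z *
        (psi ζ z * (psi ζ z * g' p z))) = 0 := by
    rw [← Finset.sum_add_distrib]
    refine Finset.sum_eq_zero fun p _ => ?_
    have tf : TU fun z => psi ζ z * g' p z := (tg' p).mul_left sp
    have tff : TU fun z => psi ζ z * (psi ζ z * g' p z) := tf.mul_left sp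
    have t1 : TU fun z => PxG s₁ e₁ τ (PxG s₁ (HY.adj e₁) (-τ) g') p z *
        (psi ζ z * (psi ζ z * g' p z)) :=
      tff.mul_left (su_PxG h₁ he₁ τ (su_PxG h₁ he₁' (-τ) sg') p)
    have t2 : TU fun z => PyG s₂ e₂ τ (PyG s₂ (HY.adj e₂) (-τ) g') p z *
        (psi ζ z * (psi ζ z * g' p z)) :=
      tff.mul_left (su_PyG h₂ he₂ τ (su_PyG h₂ he₂' (-τ) sg') p)
    rw [← In_add t1 t2, ← In_zero (n := n)]
    refine In_congr fun z hz => ?_
    by_cases hzK : z ∈ tsupport ζ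
    · have e1 : PxG s₁ e₁ τ (PxG s₁ (HY.adj e₁) (-τ) g') p z =
          PxG s₁ e₁ τ (PxG s₁ (HY.adj e₁) (-τ) g) p z :=
        (PxG_congr_nhds (PxG_congr_nhds (hloc z hzK) s₁ (HY.adj e₁) (-τ)) s₁ e₁ τ p).eq_of_nhds
      have e2 : PyG s₂ e₂ τ (PyG s₂ (HY.adj e₂) (-τ) g') p z =
          PyG s₂ e₂ τ (PyG s₂ (HY.adj e₂) (-τ) g) p z :=
        (PyG_congr_nhds (PyG_congr_nhds (hloc z hzK) s₂ (HY.adj e₂) (-τ)) s₂ e₂ τ p).eq_of_nhds
      rw [e1, e2, ← add_mul, heq z hz p, zero_mul]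
    · rw [hψ0 z hzK]; ring
  have h1 : ∑ p, In (fun z => g' p z ^ 2) ≤ ∑ p, ∫ z in Un n, th z * g p z ^ 2 := by
    refine Finset.sum_le_sum fun p _ => ?_
    refine setIntegral_mono_on (tu_int ((tg' p).pow two_ne_zero)) (hint p) isOpen_Un.measurableSet
      fun z hz => mul_le_mul_of_nonneg_left ?_ (th_pos hz).le
    simp only [hg', mul_pow]
    have := pow_le_one₀ (n := 2) (hη2 z).1 (hη2 z).2
    nlinarith [sq_nonneg (g p z)]
  have hO : IsOpen {z : VV n | z ∈ Un n ∧ ρ < rr z.1 ∧ ρ < rr z.2} :=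
    isOpen_Un.inter ((isOpen_lt continuous_const c1).inter (isOpen_lt continuous_const c2))
  have h2 : ∑ p, ∫ z in {z : VV n | z ∈ Un n ∧ ρ < rr z.1 ∧ ρ < rr z.2}, th z * g p z ^ 2 ≤
      ∑ p, In (fun z => ζ z ^ 8 * g' p z ^ 2) := by
    refine Finset.sum_le_sum fun p _ => ?_
    have e : ∫ z in {z : VV n | z ∈ Un n ∧ ρ < rr z.1 ∧ ρ < rr z.2}, th z * g p z ^ 2 =
        ∫ z in {z : VV n | z ∈ Un n ∧ ρ < rr z.1 ∧ ρ < rr z.2},
          th z * (ζ z ^ 8 * g' p z ^ 2) := by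
      refine setIntegral_congr_fun hO.measurableSet fun z hz => ?_
      have h3 := hζ6 z hz.1 hz.2.1.le hz.2.2.le
      have h4 : z ∈ tsupport ζ := by
        apply subset_tsupport
        rw [Function.mem_support, h3]
        exact one_ne_zero
      have h5 := (hloc z h4 p).eq_of_nhds
      change th z * g p z ^ 2 = th z * (ζ z ^ 8 * g' p z ^ 2)
      rw [h3, h5]; ring
    rw [e]
    have t1 : TU fun z => ζ z ^ 8 * g' p z ^ 2 :=
      ((tg' p).pow two_ne_zero).mul_left ((TU.su hζ1).pow 8)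
    refine setIntegral_mono_set (tu_int t1) ?_ ?_
    · refine (ae_restrict_iff' isOpen_Un.measurableSet).2 (ae_of_all _ fun z hz => ?_)
      have := th_pos hz
      have := (hζ2 z).1
      simp only [Pi.zero_apply]
      positivity
    · exact LE.le.eventuallyLE (show {z : VV n | z ∈ Un n ∧ ρ < rr z.1 ∧ ρ < rr z.2} ⊆ Un n from
        fun z hz => hz.1)
  have h3 : τ ^ 2 * ∑ p, In (fun z => ζ z ^ 8 * g' p z ^ 2) ≤
      4 * c10 n m D ^ 2 * (1 + τ ^ 2) * δ * ∑ p, In (fun z => g' p z ^ 2) := by linarith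
  calc _ ≤ τ ^ 2 * ∑ p, In (fun z => ζ z ^ 8 * g' p z ^ 2) :=
        mul_le_mul_of_nonneg_left h2 (sq_nonneg _)
    _ ≤ _ := h3
    _ ≤ _ := mul_le_mul_of_nonneg_left h1 (by positivity)

theorem c10_ge (n m : ℕ) (D : ℝ) : 1 ≤ c10 n m D := by
  have k1 : 0 ≤ c1 n ^ 2 := sq_nonneg _
  have k2 : 0 ≤ c2 n := by unfold c2; positivity
  have k3 : 0 ≤ c3 n := by unfold c3; positivity
  have k4 : 0 ≤ c4 n := by unfold c4; positivity
  have k5 : 0 ≤ c5 n := by unfold c5; positivity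
  have k6 : 0 ≤ c6' n := by unfold c6'; positivity
  have kR := cR_nonneg n m D
  have k8 : 0 ≤ c8 n m D := by unfold c8; positivity
  have k9 : 0 ≤ c9 n m D := by unfold c9; positivity
  unfold c10; linarith

/-- Vanishing in the top degree, systems, arbitrary bounded coefficients. -/
theorem topG (hn : 3 ≤ n) {s₁ s₂ : MF n} {e₁ e₂ : Co n m} (hK : 1 ≤ K)
    (hε : ε ≤ 1 / (96 * (n : ℝ) ^ 4)) (h₁ : TS n K ε s₁) (h₂ : TS n K ε s₂)
    (he₁ : CB D e₁) (he₁' : CB D (HY.adj e₁)) (he₂ : CB D e₂) (he₂' : CB D (HY.adj e₂))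
    (hτ : 5 * c10 n m D ≤ τ) {g : Fin m → VV n → ℝ} (hg : ∀ p, SU (g p))
    (hint : ∀ p, IntegrableOn (fun z => th z * g p z ^ 2) (Un n))
    (heq : ∀ z ∈ Un n, ∀ p, PxG s₁ e₁ τ (PxG s₁ (HY.adj e₁) (-τ) g) p z +
      PyG s₂ e₂ τ (PyG s₂ (HY.adj e₂) (-τ) g) p z = 0) :
    ∀ z ∈ Un n, ∀ p, g p z = 0 := by
  intro z₀ hz₀ p₀
  have hC := c10_ge n m D
  have hC0 : 0 < c10 n m D := by linarith
  have hτ0 : 0 < τ := by linarith
  -- the open set
  set ρ : ℝ := min (rr z₀.1) (rr z₀.2) / 2 with hρd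
  have hρ : 0 < ρ := by
    have := lt_min (rx_pos hz₀) (ry_pos hz₀)
    positivity
  set O : Set (VV n) := {z : VV n | z ∈ Un n ∧ ρ < rr z.1 ∧ ρ < rr z.2} with hOd
  have hz₀O : z₀ ∈ O := by
    have h1 := min_le_left (rr z₀.1) (rr z₀.2)
    have h2 := min_le_right (rr z₀.1) (rr z₀.2)
    have h3 := lt_min (rx_pos hz₀) (ry_pos hz₀)
    exact ⟨hz₀, by rw [hρd]; linarith, by rw [hρd]; linarith⟩
  have hO : IsOpen O := by
    have c1 : Continuous fun z : VV n => rr z.1 := by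
      unfold rr
      exact ((contDiff_const.sub (cont_sq.comp contDiff_fst)).div_const 2).continuous
    have c2 : Continuous fun z : VV n => rr z.2 := by
      unfold rr
      exact ((contDiff_const.sub (cont_sq.comp contDiff_snd)).div_const 2).continuous
    exact isOpen_Un.inter ((isOpen_lt continuous_const c1).inter (isOpen_lt continuous_const c2))
  have hsub : O ⊆ Un n := fun z hz => hz.1
  have hnn : ∀ p, 0 ≤ ∫ z in O, th z * g p z ^ 2 := fun p =>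
    setIntegral_nonneg hO.measurableSet fun z hz => mul_nonneg (th_pos (hsub hz)).le (sq_nonneg _)
  set X := ∑ p, ∫ z in O, th z * g p z ^ 2 with hX
  set I := ∑ p, ∫ z in Un n, th z * g p z ^ 2 with hI
  have hX0 : 0 ≤ X := Finset.sum_nonneg fun p _ => hnn p
  have hI0 : 0 ≤ I := Finset.sum_nonneg fun p _ => setIntegral_nonneg isOpen_Un.measurableSet
    fun z hz => mul_nonneg (th_pos hz).le (sq_nonneg _)
  have hle : ∀ δ : ℝ, 0 < δ → δ ≤ 1 / (80 * c10 n m D) →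
      τ ^ 2 * X ≤ 4 * c10 n m D ^ 2 * (1 + τ ^ 2) * δ * I := fun δ hδ0 hδ =>
    sol_leG hn (fun d ρ hd hρ => H205.exists_cut n d ρ hd hρ) hK hε h₁ h₂ he₁ he₁' he₂ he₂' hτ hg
      hint heq hδ0 hδ hρ
  have hXz : X = 0 := by
    by_contra hne
    have hXp : 0 < X := lt_of_le_of_ne hX0 (Ne.symm hne)
    set B := 4 * c10 n m D ^ 2 * (1 + τ ^ 2) * I with hB
    have hB0 : 0 ≤ B := by positivity
    have hδp : 0 < min (1 / (80 * c10 n m D)) (τ ^ 2 * X / (2 * (B + 1))) :=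
      lt_min (by positivity) (by positivity)
    have h1 := hle _ hδp (min_le_left _ _)
    have h2 : 4 * c10 n m D ^ 2 * (1 + τ ^ 2) *
        min (1 / (80 * c10 n m D)) (τ ^ 2 * X / (2 * (B + 1))) * I ≤
        B * (τ ^ 2 * X / (2 * (B + 1))) := by
      have := mul_le_mul_of_nonneg_left
        (min_le_right (1 / (80 * c10 n m D)) (τ ^ 2 * X / (2 * (B + 1)))) hB0
      rw [hB] at this ⊢
      linarith
    have h3 : B * (τ ^ 2 * X / (2 * (B + 1))) < τ ^ 2 * X := by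
      rw [mul_div_assoc', div_lt_iff₀ (by positivity)]
      have : 0 < τ ^ 2 * X := by positivity
      nlinarith
    linarith
  have hXp : ∫ z in O, th z * g p₀ z ^ 2 = 0 :=
    (Finset.sum_eq_zero_iff_of_nonneg fun p _ => hnn p).1 hXz p₀ (Finset.mem_univ _)
  have hae : (fun z => th z * g p₀ z ^ 2) =ᵐ[volume.restrict O] fun _ => 0 := by
    have := (setIntegral_eq_zero_iff_of_nonneg_ae (μ := volume) (s := O)
      (f := fun z => th z * g p₀ z ^ 2) ?_ ((hint p₀).mono_set hsub)).1 hXp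
    · exact this
    · exact (ae_restrict_iff' hO.measurableSet).2 (ae_of_all _ fun z hz =>
        mul_nonneg (th_pos (hsub hz)).le (sq_nonneg _))
  have hcont : ContinuousOn (fun z => th z * g p₀ z ^ 2) O :=
    ((su_th.mul (ContDiffOn.pow (hg p₀) 2)).continuousOn).mono hsub
  have hzero := Measure.eqOn_open_of_ae_eq hae hO hcont continuousOn_const hz₀O
  simp only at hzero
  have := (th_pos hz₀).ne'
  rcases mul_eq_zero.1 hzero with h | h
  · exact absurd h this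
  · exact pow_eq_zero_iff (two_ne_zero) |>.1 h

/-- Row TOPG. -/
theorem rowTOPG : RowTOPG := by
  intro n m hn
  have hnR : (3 : ℝ) ≤ n := by exact_mod_cast hn
  refine ⟨1 / (96 * (n : ℝ) ^ 4), by positivity, fun M hM =>
    ⟨5 * c10 n m (M + n + 1), ?_, ?_⟩⟩
  · have := c10_ge n m (M + n + 1)
    linarith
  · intro s₁ s₂ e₁ e₂ h₁ h₂ he₁ he₂ _ τ hτ g hg hint heq
    have hε1 : 1 / (96 * (n : ℝ) ^ 4) ≤ 1 := eps_le hn
    exact topG hn (by norm_num) le_rfl h₁ h₂ (cb_of hM.le he₁ hε1)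
      (cb_adj hM.le he₁ (by norm_num) hε1) (cb_of hM.le he₂ hε1)
      (cb_adj hM.le he₂ (by norm_num) hε1) hτ hg hint heq

end Vale.Agent.P088.R2.H961
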